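import Vale.Agent.P025.R2.H552.F2emb

/-!
# Laurent expansion of `F2 C`, equivariance, `(1 + b s^e)` is not a `q`-th power (helper552)
-/

universe u v w

namespace P025H552

open Polynomial P025H373

noncomputable section

set_option linter.unusedSectionVars false

variable {C : Type u} [NontriviallyNormedField C] [IsUltrametricDist C] [CompleteSpace C]
  [IsAlgClosed C]


lemma exists_phi2 : ∃ φ : F2 C →ₐ[C] (LaurentSeries C), ∀ a : A2 C, φ (iA2 a) = ofPS (tay2 a) := by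
  let alg : Algebra (A2 C) (F2 C) := (iA2 (C := C)).toRingHom.toAlgebra
  have hmap : ∀ a : A2 C, algebraMap (A2 C) (F2 C) a = iA2 a := fun _ => rfl
  have h1 : FaithfulSMul (A2 C) (F2 C) :=
    (faithfulSMul_iff_algebraMap_injective _ _).2 iA2_inj
  have h2 : IsFractionRing (A2 C) (F2 C) := by
    refine IsFractionRing.of_field _ _ fun z => ?_
    obtain ⟨a, b, -, h⟩ := exists_div_A2 z
    exact ⟨a, b, h⟩
  let g : A2 C →+* (LaurentSeries C) := (ofPS (C := C)).comp (tay2 (C := C)).toRingHom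
  have hg : Function.Injective g := by
    rw [injective_iff_map_eq_zero]
    intro a ha
    by_contra h
    exact tay2_ne_zero h (ofPS_inj (by rw [map_zero]; exact ha))
  have hlift : ∀ a : A2 C, IsFractionRing.lift (K := F2 C) hg (iA2 a) = ofPS (tay2 a) := fun a =>
    IsFractionRing.lift_algebraMap hg a
  refine ⟨⟨IsFractionRing.lift (K := F2 C) hg, fun c => ?_⟩, fun a => hlift a⟩
  have h3 : algebraMap C (F2 C) c = iA2 (algebraMap C (A2 C) c) := rfl
  change IsFractionRing.lift (K := F2 C) hg (algebraMap C (F2 C) c) = _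
  rw [h3, hlift, AlgHom.commutes]
  exact ofPS_C c

/-- `s = 1/t` in `F2` -/
lemma s_eq : (algebraMap (RatFunc C) (F2 C) RatFunc.X)⁻¹ = iA2 (sA (C := C)) := by
  apply Subtype.ext
  rfl

lemma scale_s {ε : C} (hc : ε⁻¹ ≠ 0) (h : 1 ≤ ‖ε⁻¹‖) :
    sub2 ε⁻¹ hc h (iA2 (sA (C := C))) = algebraMap C (F2 C) ε * iA2 (sA (C := C)) := by
  rw [← s_eq, map_inv₀, sub2_algebraMap, scale_X, map_mul, mul_inv]
  congr 1
  have h1 : (algebraMap (RatFunc C) (F2 C)) (RatFunc.C ε⁻¹) = algebraMap C (F2 C) ε⁻¹ := rfl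
  rw [h1, map_inv₀, inv_inv]

lemma exists_T2 {φ : F2 C →ₐ[C] (LaurentSeries C)} (hφ : ∀ a : A2 C, φ (iA2 a) = ofPS (tay2 a)) {ε : C}
    (hε : ‖ε‖ = 1) (hε0 : ε ≠ 0) (x : F2 C) : ∃ x' : F2 C, φ x' = T hε0 (φ x) := by
  have hc : ε⁻¹ ≠ 0 := inv_ne_zero hε0
  have hn : 1 ≤ ‖ε⁻¹‖ := by rw [norm_inv, hε, inv_one]
  let τ : F2 C →ₐ[C] F2 C := sub2 ε⁻¹ hc hn
  let τ0 : A2 C →ₐ[C] F0 C := ((F2 C).val.restrictScalars C).comp (τ.comp iA2)
  let τA : A2 C →ₐ[C] A2 C :=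
    τ0.codRestrict (A2 C) fun a => (sub2_mem_A2 ε⁻¹ hc hn (iA2 a) a.2).1
  have hτA : ∀ a, iA2 (τA a) = τ (iA2 a) := fun a => rfl
  have hs : τA sA = algebraMap C (A2 C) ε * sA := by
    apply iA2_inj
    rw [hτA, map_mul, AlgHom.commutes]
    exact scale_s hc hn
  have key : ∀ a : A2 C, φ (τ (iA2 a)) = T hε0 (φ (iA2 a)) := by
    intro a
    rw [← hτA, hφ, hφ, T_ofPS]
    congr 1
    exact (taylorData (C := C)).tayHom_tau τA ε hs a
  obtain ⟨a, b, -, rfl⟩ := exists_div_A2 x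
  exact ⟨τ (iA2 a / iA2 b), by rw [map_div₀, map_div₀, key, key, map_div₀, map_div₀]⟩

lemma der_const (c : C) : der C (algebraMap C (F0 C) c) = 0 := (der C).map_algebraMap c

/-- `1 + b s^e` is not a `q`-th power, if `‖q‖ < ‖b‖ ‖e‖`. -/
lemma not_pow_aux {q e : ℕ} {b : C} (hb1 : ‖b‖ < 1) (hb : ‖(q : C)‖ < ‖b‖ * ‖(e : C)‖) (g : F0 C) :
    g ^ q ≠ 1 + algebraMap C (F0 C) b * ((tt C)⁻¹) ^ e := by
  intro hg
  have htt : ‖tt C‖ = 1 := norm_tt
  have hnorm : ‖algebraMap C (F0 C) b * ((tt C)⁻¹) ^ e‖ = ‖b‖ := by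
    rw [norm_mul, norm_pow, norm_inv, htt, inv_one, one_pow, mul_one, norm_algebraMap_C]
  have h1 : ‖g ^ q‖ = 1 := by
    rw [hg]
    have : ‖(1 : F0 C)‖ = 1 := norm_one
    rw [IsUltrametricDist.norm_add_eq_max_of_norm_ne_norm (by rw [hnorm, this]; exact hb1.ne'),
      hnorm, this]
    exact max_eq_left hb1.le
  have hq : q ≠ 0 := by
    rintro rfl
    rw [pow_zero] at hg
    have h2 : algebraMap C (F0 C) b * ((tt C)⁻¹) ^ e = 0 := by linear_combination -hg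
    rw [h2, norm_zero] at hnorm
    rw [← hnorm, zero_mul] at hb
    exact absurd hb (not_lt.2 (norm_nonneg _))
  have h2 : ‖g‖ = 1 := by
    rw [norm_pow] at h1
    exact (pow_eq_one_iff_of_nonneg (norm_nonneg _) hq).1 h1
  have h3 := congrArg (der C) hg
  rw [Derivation.leibniz_pow, map_add, Derivation.map_one_eq_zero, zero_add,
    Derivation.leibniz, der_const, smul_zero, add_zero, Derivation.leibniz_pow,
    Derivation.leibniz_inv, der_tt] at h3
  have h4 : ‖(q : C)‖ * ‖der C g‖ = ‖b‖ * ‖(e : C)‖ := by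
    have h5 := congrArg norm h3
    have hn : ∀ n : ℕ, ‖(n : F0 C)‖ = ‖(n : C)‖ := fun n => by
      rw [← norm_algebraMap_C (n : C), map_natCast]
    simp only [smul_eq_mul, nsmul_eq_mul, norm_mul, norm_pow, norm_neg, norm_inv, htt, inv_one,
      one_pow, mul_one, one_mul, h2, norm_algebraMap_C, hn] at h5
    linarith
  have h5 : ‖der C g‖ ≤ 1 := h2 ▸ norm_der_le g
  have h6 : ‖(q : C)‖ * ‖der C g‖ ≤ ‖(q : C)‖ := by
    calc _ ≤ ‖(q : C)‖ * 1 := by gcongr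
      _ = _ := mul_one _
  linarith

end

end P025H552
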