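import Vale.Agent.P025.R2.H552.Root

/-!
# `(y - ζ) / (y - ζ')` is not an `l`-th power: abstract core (helper552)
-/

universe u v w

namespace P025H552

open PowerSeries

noncomputable section

variable {C : Type u} [Field C]


/-- `g = X^k u` with `u(0) ≠ 0`. -/
def HasOrd (g : LaurentSeries C) (k : ℤ) : Prop :=
  ∃ u : C⟦X⟧, constantCoeff u ≠ 0 ∧ g = LX ^ k * ofPS u

lemma HasOrd.unique {g : (LaurentSeries C)} {k k' : ℤ} (h : HasOrd g k) (h' : HasOrd g k') : k = k' := by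
  obtain ⟨u, hu, e1⟩ := h
  obtain ⟨u', hu', e2⟩ := h'
  exact (decomp_unique hu hu' (e1.symm.trans e2)).1

lemma HasOrd.ne_zero {g : (LaurentSeries C)} {k : ℤ} (h : HasOrd g k) : g ≠ 0 := by
  obtain ⟨u, hu, rfl⟩ := h
  refine mul_ne_zero (zpow_ne_zero _ LX_ne_zero) fun h => hu ?_
  have := ofPS_inj (h.trans (map_zero _).symm)
  rw [this, map_zero]

lemma HasOrd.mul {g g' : (LaurentSeries C)} {k k' : ℤ} (h : HasOrd g k) (h' : HasOrd g' k') :
    HasOrd (g * g') (k + k') := by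
  obtain ⟨u, hu, rfl⟩ := h
  obtain ⟨u', hu', rfl⟩ := h'
  refine ⟨u * u', by rw [map_mul]; exact mul_ne_zero hu hu', ?_⟩
  rw [zpow_add₀ LX_ne_zero, map_mul]; ring

lemma exists_hasOrd {g : (LaurentSeries C)} (h : g ≠ 0) : ∃ k, HasOrd g k := by
  obtain ⟨k, u, h1, h2⟩ := exists_decomp g h
  exact ⟨k, u, h1, h2⟩

lemma hasOrd_one : HasOrd (1 : (LaurentSeries C)) 0 := ⟨1, by simp, by simp⟩

lemma HasOrd.pow {g : (LaurentSeries C)} {k : ℤ} (h : HasOrd g k) (n : ℕ) : HasOrd (g ^ n) (n * k) := by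
  induction n with
  | zero => simpa using hasOrd_one
  | succ n ih =>
    rw [pow_succ, Nat.cast_succ, add_mul, one_mul]
    exact ih.mul h

lemma HasOrd.inv {g : (LaurentSeries C)} {k : ℤ} (h : HasOrd g k) : HasOrd g⁻¹ (-k) := by
  obtain ⟨k', hk'⟩ := exists_hasOrd (inv_ne_zero h.ne_zero)
  have h1 := h.mul hk'
  rw [mul_inv_cancel₀ h.ne_zero] at h1
  have h2 := h1.unique hasOrd_one
  have : k' = -k := by omega
  rwa [← this]

lemma HasOrd.div {g g' : (LaurentSeries C)} {k k' : ℤ} (h : HasOrd g k) (h' : HasOrd g' k') :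
    HasOrd (g / g') (k - k') := by
  rw [div_eq_mul_inv, sub_eq_add_neg]
  exact h.mul h'.inv

lemma hasOrd_ofPS {u : C⟦X⟧} (h : constantCoeff u ≠ 0) : HasOrd (ofPS u) 0 := ⟨u, h, by simp⟩

open Classical in
lemma hasOrd_root_sub [CharZero C] {q e : ℕ} (hq : q ≠ 0) {b : C} (hb : b ≠ 0)
    {R : C⟦X⟧} (hR : R ^ q = 1 + PowerSeries.C b * X ^ e) (hR1 : constantCoeff R = 1)
    {ω ζ : C} (hω : ω ≠ 0) :
    HasOrd (algebraMap C (LaurentSeries C) ω * ofPS R - algebraMap C (LaurentSeries C) ζ) (if ω = ζ then (e : ℤ) else 0) := by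
  have h0 : algebraMap C (LaurentSeries C) ω * ofPS R - algebraMap C (LaurentSeries C) ζ =
      ofPS (PowerSeries.C ω * R - PowerSeries.C ζ) := by
    rw [map_sub, map_mul, ofPS_C, ofPS_C]
  rw [h0]
  split_ifs with h
  · subst h
    have h1 : (∑ i ∈ Finset.range q, R ^ i) * (R - 1) = PowerSeries.C b * X ^ e := by
      rw [geom_sum_mul, hR]; ring
    set S : C⟦X⟧ := ∑ i ∈ Finset.range q, R ^ i with hS
    have h2 : constantCoeff S ≠ 0 := by
      rw [hS, map_sum]
      simp [hR1, hq]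
    have h3 : HasOrd (ofPS (R - 1)) e := by
      have e1 : ofPS (R - 1) = (ofPS (PowerSeries.C b) * LX ^ (e : ℤ)) / ofPS S := by
        rw [eq_div_iff (hasOrd_ofPS h2).ne_zero, ← map_mul, mul_comm, h1, map_mul, map_pow, ofPS_X,
          zpow_natCast]
      rw [e1]
      have e2 : HasOrd (ofPS (PowerSeries.C b) * LX ^ (e : ℤ) : (LaurentSeries C)) e :=
        ⟨PowerSeries.C b, by simpa using hb, by ring⟩
      simpa using e2.div (hasOrd_ofPS h2)
    have h4 : ofPS (PowerSeries.C ω * R - PowerSeries.C ω) =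
        ofPS (PowerSeries.C ω) * ofPS (R - 1) := by
      rw [← map_mul]; congr 1; ring
    rw [h4]
    simpa using (hasOrd_ofPS (u := PowerSeries.C ω) (by simpa using hω)).mul h3
  · apply hasOrd_ofPS
    rw [map_sub, map_mul, hR1, constantCoeff_C, constantCoeff_C, mul_one]
    exact sub_ne_zero.2 h

end

end P025H552
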