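import Mathlib

/-!
# Taylor expansion: `(A, ρ, s) ↦ C⟦X⟧`, Laurent series, the automorphism `X ↦ ε X` (helper552)
-/

universe u v

namespace P025H552

open PowerSeries

noncomputable section Taylor

variable {C : Type u} [Field C] {A : Type v} [CommRing A] [IsDomain A] [Algebra C A]

/-- Data: `s ∈ A` nonzero, `ρ : A → C` with kernel `s A`. -/
structure TaylorData (ρ : A →ₐ[C] C) (s : A) : Prop where
  ne_zero : s ≠ 0
  rho_s : ρ s = 0
  dvd : ∀ x, ρ x = 0 → s ∣ x

variable {ρ : A →ₐ[C] C} {s : A} (h : TaylorData ρ s)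

include h in
lemma TaylorData.exists_D (x : A) : ∃ y, x - algebraMap C A (ρ x) = s * y :=
  h.dvd _ (by simp)

/-- `D x = (x - ρ x) / s` -/
def TaylorData.D (x : A) : A := (h.exists_D x).choose

lemma TaylorData.D_spec (x : A) : x = algebraMap C A (ρ x) + s * h.D x := by
  have := (h.exists_D x).choose_spec
  unfold TaylorData.D
  linear_combination this

lemma TaylorData.D_unique {x y : A} {c : C} (hx : x = algebraMap C A c + s * y) :
    ρ x = c ∧ h.D x = y := by
  have h1 : ρ x = c := by rw [hx]; simp [h.rho_s]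
  refine ⟨h1, ?_⟩
  have h2 := h.D_spec x
  rw [h1] at h2
  have h3 : s * h.D x = s * y := by linear_combination hx - h2
  exact mul_left_cancel₀ h.ne_zero h3

lemma TaylorData.D_add (x y : A) : h.D (x + y) = h.D x + h.D y := by
  refine (h.D_unique (c := ρ x + ρ y) ?_).2
  conv_lhs => rw [h.D_spec x, h.D_spec y]
  rw [map_add]; ring

lemma TaylorData.D_algebraMap (c : C) : h.D (algebraMap C A c) = 0 :=
  (h.D_unique (c := c) (by simp)).2

lemma TaylorData.D_mul (x y : A) :
    h.D (x * y) = h.D x * y + algebraMap C A (ρ x) * h.D y := by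
  refine (h.D_unique (c := ρ x * ρ y) ?_).2
  conv_lhs => rw [h.D_spec x]
  have := h.D_spec y
  rw [map_mul]
  linear_combination (algebraMap C A (ρ x)) * this

/-- Taylor series. -/
def TaylorData.tay (x : A) : C⟦X⟧ := PowerSeries.mk fun n => ρ (h.D^[n] x)

lemma TaylorData.coeff_tay (x : A) (n : ℕ) : coeff n (h.tay x) = ρ (h.D^[n] x) := coeff_mk _ _

lemma TaylorData.coeff_zero_tay (x : A) : coeff 0 (h.tay x) = ρ x := h.coeff_tay x 0

lemma TaylorData.coeff_succ_tay (x : A) (n : ℕ) :
    coeff (n + 1) (h.tay x) = coeff n (h.tay (h.D x)) := by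
  rw [h.coeff_tay, h.coeff_tay, Function.iterate_succ_apply]

lemma TaylorData.tay_add (x y : A) : h.tay (x + y) = h.tay x + h.tay y := by
  ext n
  rw [map_add]
  induction n generalizing x y with
  | zero => simp [h.coeff_zero_tay]
  | succ n ih => rw [h.coeff_succ_tay, h.coeff_succ_tay, h.coeff_succ_tay, h.D_add, ih]

lemma TaylorData.tay_algebraMap (c : C) : h.tay (algebraMap C A c) = PowerSeries.C c := by
  ext n
  cases n with
  | zero => rw [h.coeff_zero_tay]; simp
  | succ n =>
    rw [h.coeff_succ_tay, h.D_algebraMap, h.coeff_tay, coeff_C]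
    have : ∀ n : ℕ, h.D^[n] (0 : A) = 0 := by
      intro n
      induction n with
      | zero => rfl
      | succ n ih =>
        rw [Function.iterate_succ_apply', ih]
        simpa using h.D_algebraMap 0
    simp [this]

lemma TaylorData.coeff_succ_mul_C (c : C) (f : C⟦X⟧) (n : ℕ) :
    coeff n (PowerSeries.C c * f) = c * coeff n f := by simp

lemma TaylorData.tay_eq (x : A) : h.tay x = PowerSeries.C (ρ x) + X * h.tay (h.D x) := by
  ext n
  cases n with
  | zero => simp [h.coeff_zero_tay]
  | succ n => rw [h.coeff_succ_tay, map_add, coeff_succ_X_mul]; simp [coeff_C]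

lemma TaylorData.tay_mul (x y : A) : h.tay (x * y) = h.tay x * h.tay y := by
  ext n
  induction n generalizing x y with
  | zero => simp [h.coeff_zero_tay, coeff_mul]
  | succ n ih =>
    rw [h.coeff_succ_tay, h.D_mul, h.tay_add, map_add, ih, ih, h.tay_algebraMap,
      h.tay_eq x, add_mul, map_add, mul_assoc X, coeff_succ_X_mul]
    rw [coeff_C_mul, coeff_C_mul, ← h.coeff_succ_tay y]
    ring

/-- Taylor expansion as an algebra homomorphism. -/
def TaylorData.tayHom : A →ₐ[C] C⟦X⟧ where
  toFun := h.tay
  map_one' := by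
    have := h.tay_algebraMap (1 : C)
    simpa using this
  map_mul' := h.tay_mul
  map_zero' := by
    have := h.tay_algebraMap (0 : C)
    simpa using this
  map_add' := h.tay_add
  commutes' c := h.tay_algebraMap c

lemma TaylorData.tayHom_apply (x : A) : h.tayHom x = h.tay x := rfl

lemma TaylorData.tayHom_s : h.tayHom s = X := by
  have h1 := h.D_unique (x := s) (y := 1) (c := 0) (by simp)
  rw [h.tayHom_apply, h.tay_eq, h1.1, h1.2]
  have : h.tay 1 = 1 := map_one h.tayHom
  rw [this]; simp

lemma TaylorData.constantCoeff_tayHom (x : A) : constantCoeff (h.tayHom x) = ρ x := by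
  rw [← coeff_zero_eq_constantCoeff_apply]
  exact h.coeff_zero_tay x

/-- Equivariance: if `τ s = ε s`, `ρ τ = ρ`, then Taylor of `τ x` is the rescaling. -/
lemma TaylorData.tayHom_tau (τ : A →ₐ[C] A) (ε : C) (hτ : τ s = algebraMap C A ε * s) (x : A) :
    h.tayHom (τ x) = rescale ε (h.tayHom x) := by
  have key : ∀ x, ρ (τ x) = ρ x ∧ h.D (τ x) = algebraMap C A ε * τ (h.D x) := by
    intro x
    refine h.D_unique ?_
    conv_lhs => rw [h.D_spec x, map_add, map_mul, hτ, AlgHom.commutes]
    ring
  ext n
  rw [coeff_rescale]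
  induction n generalizing x with
  | zero =>
    simp only [coeff_zero_eq_constantCoeff, h.constantCoeff_tayHom, (key x).1]
    simp
  | succ n ih =>
    rw [h.tayHom_apply, h.tayHom_apply, h.coeff_succ_tay, h.coeff_succ_tay, (key x).2, h.tay_mul,
      h.tay_algebraMap, coeff_C_mul]
    have := ih (h.D x)
    rw [h.tayHom_apply, h.tayHom_apply] at this
    rw [this]; ring

end Taylor

end P025H552
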