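import Vale.Agent.P025.R2.H816.J03
import Vale.Agent.P025.R2.H552.PS
import Vale.Agent.P025.R2.H552.Core

/-!
# Laurent expansion of a function field at a place (helper552)

`exists_lau`: `K → k((X))`, uniformizer `s ↦ X`; `exists_lau_pole`: `T ↦ X^(-N)`.
-/

universe u v

namespace P025H552

open Vale.Agent.P019P PowerSeries

noncomputable section

set_option linter.unusedSectionVars false

section General

variable {k : Type u} [Field k]

lemma hasOrd_order {z : LaurentSeries k} (hz : z ≠ 0) : HasOrd z z.order := by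
  refine ⟨z.powerSeriesPart, ?_, ?_⟩
  · rw [← coeff_zero_eq_constantCoeff_apply, LaurentSeries.powerSeriesPart_coeff]
    simpa using HahnSeries.coeff_order_eq_zero.not.2 hz
  · rw [LX_zpow]
    exact (LaurentSeries.single_order_mul_powerSeriesPart z).symm

lemma HasOrd.order_eq {z : LaurentSeries k} {n : ℤ} (h : HasOrd z n) : z.order = n :=
  (hasOrd_order h.ne_zero).unique h

lemma hasOrd_LX : HasOrd (LX : LaurentSeries k) 1 := ⟨1, by simp, by simp⟩

lemma hasOrd_LX_zpow (n : ℤ) : HasOrd ((LX : LaurentSeries k) ^ n) n := ⟨1, by simp, by simp⟩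

lemma HasOrd.zpow {z : LaurentSeries k} {n : ℤ} (h : HasOrd z n) (m : ℤ) :
    HasOrd (z ^ m) (m * n) := by
  obtain ⟨j, rfl | rfl⟩ := m.eq_nat_or_neg
  · simpa using h.pow j
  · simpa using (h.pow j).inv

/-- roots of unit power series -/
lemma exists_root_unit [CharZero k] [IsAlgClosed k] {N : ℕ} (hN : N ≠ 0) {v : k⟦X⟧}
    (hv : constantCoeff v ≠ 0) : ∃ w : k⟦X⟧, w ^ N = v ∧ constantCoeff w ≠ 0 := by
  obtain ⟨c, hc⟩ := IsAlgClosed.exists_pow_nat_eq (constantCoeff v) (Nat.pos_of_ne_zero hN)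
  have hc0 : c ≠ 0 := by
    rintro rfl
    rw [zero_pow hN] at hc
    exact hv hc.symm
  let a : k⟦X⟧ := PowerSeries.C (c ^ N)⁻¹ * v - 1
  have ha : constantCoeff a = 0 := by
    simp only [a, map_sub, map_mul, constantCoeff_C, map_one]
    rw [hc, inv_mul_cancel₀ hv, sub_self]
  have hs : HasSubst a := HasSubst.of_constantCoeff_zero' ha
  let B : k⟦X⟧ := binomialSeries k (1 / N : ℚ)
  have hB : B ^ N = 1 + X := by
    have h1 : ∀ n : ℕ, B ^ n = binomialSeries k ((n : ℚ) * (1 / N)) := by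
      intro n
      induction n with
      | zero => simp
      | succ n ih => rw [pow_succ, ih, Nat.cast_succ, add_mul, one_mul, binomialSeries_add]
    rw [h1, mul_one_div, div_self (by exact_mod_cast hN)]
    have h2 := binomialSeries_nat (R := ℚ) (A := k) 1
    simpa using h2
  have h1s : (1 : k⟦X⟧).subst a = (1 : k⟦X⟧) := by
    have := map_one (substAlgHom (R := k) (S := k) hs)
    rwa [coe_substAlgHom] at this
  have hR : (B.subst a) ^ N = 1 + a := by
    rw [← subst_pow hs, hB, subst_add hs, subst_X hs, h1s]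
  have e0 : constantCoeff (B.subst a) = 1 := by
    have h4 := constantCoeff_subst_eq_zero (R := k) (S := k) (τ := Unit) (a := a) ha (B - 1)
      (by simp [B])
    rw [subst_sub hs, h1s] at h4
    have h6 : constantCoeff (B.subst a - 1) = 0 := h4
    rw [map_sub, map_one, sub_eq_zero] at h6
    exact h6
  refine ⟨PowerSeries.C c * B.subst a, ?_, ?_⟩
  · rw [mul_pow, hR, ← map_pow]
    have : 1 + a = PowerSeries.C (c ^ N)⁻¹ * v := by simp only [a]; ring
    rw [this, ← mul_assoc, ← map_mul, mul_inv_cancel₀ (pow_ne_zero _ hc0), map_one, one_mul]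
  · rw [map_mul, constantCoeff_C, e0, mul_one]
    exact hc0

/-- expansion with respect to another uniformizer `X w` of `k[[X]]`. -/
lemma taylorX {w : k⟦X⟧} (hw : constantCoeff w ≠ 0) :
    TaylorData (C := k) (A := k⟦X⟧)
      ⟨PowerSeries.constantCoeff (R := k), fun c => by simp⟩
      (X * w) where
  ne_zero := by
    intro h
    rcases mul_eq_zero.1 h with h | h
    · exact X_ne_zero h
    · rw [h, map_zero] at hw; exact hw rfl
  rho_s := by
    change constantCoeff (X * w) = 0
    simp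
  dvd x hx := by
    have h1 : X ∣ x := X_dvd_iff.2 hx
    have h2 : IsUnit w := by
      rw [PowerSeries.isUnit_iff_constantCoeff]
      exact isUnit_iff_ne_zero.2 hw
    obtain ⟨y, rfl⟩ := h1
    obtain ⟨z, hz⟩ := h2.exists_right_inv
    refine ⟨z * y, ?_⟩
    linear_combination (-(X * y)) * hz

lemma exists_change {w : k⟦X⟧} (hw : constantCoeff w ≠ 0) :
    ∃ g : LaurentSeries k →ₐ[k] LaurentSeries k, g (ofPS (X * w)) = LX ∧
      ∀ (z : LaurentSeries k) (n : ℤ), HasOrd z n → HasOrd (g z) n := by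
  let h := taylorX hw
  have hu : ∀ u : k⟦X⟧, constantCoeff u ≠ 0 → HasOrd (ofPS (h.tayHom u)) 0 := by
    intro u hu
    apply hasOrd_ofPS
    rw [h.constantCoeff_tayHom]
    exact hu
  have hX : HasOrd (ofPS (h.tayHom X)) 1 := by
    have h1 : ofPS (h.tayHom X) * ofPS (h.tayHom w) = LX := by
      rw [← map_mul, ← map_mul, h.tayHom_s, ofPS_X]
    have h2 := hu w hw
    rw [← eq_div_iff h2.ne_zero] at h1
    rw [h1]
    simpa using hasOrd_LX.div h2
  have hinj : Function.Injective ((ofPS (C := k)).comp h.tayHom.toRingHom) := by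
    rw [injective_iff_map_eq_zero]
    intro a ha
    by_contra hne
    obtain ⟨n, u, hu1, hu2⟩ := exists_decomp (ofPS a) (fun h0 => hne (ofPS_inj (by rw [h0, map_zero])))
    have hn : 0 ≤ n := by
      by_contra hlt
      push Not at hlt
      obtain ⟨j, hj⟩ : ∃ j : ℕ, n = -((j : ℤ) + 1) := ⟨(-n - 1).toNat, by omega⟩
      have h1 : ofPS (X ^ (j + 1) * a) = ofPS u := by
        rw [map_mul, hu2, map_pow, ofPS_X, hj, ← mul_assoc, ← zpow_natCast, ← zpow_add₀ LX_ne_zero]
        push_cast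
        rw [add_neg_cancel, zpow_zero, one_mul]
      have h2 := ofPS_inj h1
      apply hu1
      rw [← h2]; simp
    obtain ⟨j, rfl⟩ := Int.eq_ofNat_of_zero_le hn
    have h3 : a = X ^ j * u := by
      apply ofPS_inj
      rw [hu2, map_mul, map_pow, ofPS_X, zpow_natCast]
    have h4 : ofPS (h.tayHom a) = ofPS (h.tayHom X) ^ j * ofPS (h.tayHom u) := by
      rw [h3, map_mul, map_pow, map_mul, map_pow]
    have h5 := (hX.pow j).mul (hu u hu1)
    rw [← h4] at h5
    exact h5.ne_zero ha
  have hlift : ∀ a : k⟦X⟧, IsFractionRing.lift (K := LaurentSeries k) hinj (ofPS a) =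
      ofPS (h.tayHom a) := fun a => IsFractionRing.lift_algebraMap hinj a
  refine ⟨⟨IsFractionRing.lift (K := LaurentSeries k) hinj, fun c => ?_⟩, ?_, ?_⟩
  · change IsFractionRing.lift (K := LaurentSeries k) hinj (algebraMap k _ c) = _
    rw [← ofPS_C, hlift]
    congr 1
    exact h.tayHom.commutes c
  · change IsFractionRing.lift (K := LaurentSeries k) hinj (ofPS (X * w)) = _
    rw [hlift, h.tayHom_s, ofPS_X]
  · rintro z n ⟨u, hu1, rfl⟩
    change HasOrd (IsFractionRing.lift (K := LaurentSeries k) hinj (LX ^ n * ofPS u)) n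
    rw [map_mul, map_zpow₀, ← ofPS_X, hlift, hlift]
    simpa using (hX.zpow n).mul (hu u hu1)

end General

section Place

variable {k : Type u} {K : Type v} [Field k] [Field K] [Algebra k K] [CFF k K]

/-- the valuation ring of a place as an algebra over the constants -/
def OA (P : Plk k K) : Subalgebra k K :=
  { P.1.toSubring with algebraMap_mem' := P.2.1 }

lemma mem_OA {P : Plk k K} {x : K} : x ∈ OA P ↔ x ∈ P.1 := Iff.rfl

lemma mem_OA_iff {P : Plk k K} {x : K} : x ∈ OA P ↔ x = 0 ∨ 0 ≤ ord P x := mem_iff_ord P x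

lemma exists_cst_Mge (P : Plk k K) (x : OA P) :
    ∃ c : k, (x : K) - algebraMap k K c ∈ Mge P 1 := by
  obtain ⟨c, h | h⟩ := exists_cst P x.2
  · exact ⟨c, by rw [h, sub_self]; exact zero_mem _⟩
  · exact ⟨c, Or.inr h⟩

lemma cst_unique (P : Plk k K) {c d : k} {x : K} (hc : x - algebraMap k K c ∈ Mge P 1)
    (hd : x - algebraMap k K d ∈ Mge P 1) : c = d := by
  by_contra hne
  have h1 : algebraMap k K (d - c) ∈ Mge P 1 := by
    have := sub_mem hc hd
    rwa [sub_sub_sub_cancel_left, ← map_sub] at this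
  rw [mem_Mge, ord_const] at h1
  rcases h1 with h | h
  · rw [_root_.map_eq_zero, sub_eq_zero] at h
    exact hne h.symm
  · omega

lemma Mge_mul_OA {P : Plk k K} {x y : K} (hx : x ∈ OA P) (hy : y ∈ Mge P 1) :
    x * y ∈ Mge P 1 := by
  rw [mem_Mge] at hy ⊢
  rw [mem_OA_iff] at hx
  rcases hx with rfl | hx
  · left; rw [zero_mul]
  rcases hy with rfl | hy
  · left; rw [mul_zero]
  rcases eq_or_ne x 0 with rfl | hx0
  · left; rw [zero_mul]
  rcases eq_or_ne y 0 with rfl | hy0
  · left; rw [mul_zero]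
  right
  rw [ord_mul P hx0 hy0]; omega

/-- value at a place -/
def rhoP (P : Plk k K) (x : OA P) : k := (exists_cst_Mge P x).choose

lemma rhoP_spec (P : Plk k K) (x : OA P) : (x : K) - algebraMap k K (rhoP P x) ∈ Mge P 1 :=
  (exists_cst_Mge P x).choose_spec

lemma rhoP_eq {P : Plk k K} {x : OA P} {c : k} (h : (x : K) - algebraMap k K c ∈ Mge P 1) :
    rhoP P x = c := cst_unique P (rhoP_spec P x) h

/-- value at a place as an algebra homomorphism -/
def rhoA (P : Plk k K) : OA P →ₐ[k] k where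
  toFun := rhoP P
  map_one' := rhoP_eq (by simp)
  map_zero' := rhoP_eq (by simp)
  map_add' x y := rhoP_eq (by
    have := add_mem (rhoP_spec P x) (rhoP_spec P y)
    rw [map_add]
    convert this using 1
    push_cast
    ring)
  map_mul' x y := rhoP_eq (by
    have h1 := Mge_mul_OA x.2 (rhoP_spec P y)
    have h2 := Mge_mul_OA ((OA P).algebraMap_mem (rhoP P y)) (rhoP_spec P x)
    have := add_mem h1 h2
    rw [map_mul]
    convert this using 1
    push_cast
    ring)
  commutes' c := rhoP_eq (by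
    have : ((algebraMap k (OA P) c : OA P) : K) = algebraMap k K c := rfl
    rw [this]; simp)

lemma rhoA_eq_zero {P : Plk k K} {x : OA P} : rhoA P x = 0 ↔ (x : K) ∈ Mge P 1 := by
  constructor
  · intro h
    have := rhoP_spec P x
    have h' : rhoP P x = 0 := h
    rwa [h', map_zero, sub_zero] at this
  · intro h
    exact rhoP_eq (by rwa [map_zero, sub_zero])

lemma ne_zero_of_ord_eq_one {P : Plk k K} {s : K} (hs : ord P s = 1) : s ≠ 0 := by
  rintro rfl
  rw [ord_zero] at hs
  exact zero_ne_one hs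

lemma taylorP (P : Plk k K) {s : K} (hs : ord P s = 1) :
    TaylorData (rhoA P) (⟨s, mem_OA_iff.2 (Or.inr (by omega))⟩ : OA P) where
  ne_zero := fun h => ne_zero_of_ord_eq_one hs (congrArg Subtype.val h)
  rho_s := rhoA_eq_zero.2 (Or.inr (by change 1 ≤ ord P s; omega))
  dvd x hx := by
    rw [rhoA_eq_zero, mem_Mge] at hx
    have hs0 := ne_zero_of_ord_eq_one hs
    refine ⟨⟨s⁻¹ * x, mem_OA_iff.2 ?_⟩, Subtype.ext ?_⟩
    · rcases hx with h | h
      · left; rw [h, mul_zero]
      · rcases eq_or_ne (x : K) 0 with h0 | h0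
        · left; rw [h0, mul_zero]
        · right
          rw [ord_mul P (inv_ne_zero hs0) h0, ord_inv, hs]; omega
    · change (x : K) = s * (s⁻¹ * x)
      rw [← mul_assoc, mul_inv_cancel₀ hs0, one_mul]

/-- (E2) Laurent expansion at a place. -/
theorem exists_lau (P : Plk k K) (s : K) (hs : ord P s = 1) :
    ∃ f : K →ₐ[k] LaurentSeries k, f s = HahnSeries.single 1 1 ∧
      ∀ y, y ≠ 0 → (f y).order = ord P y := by
  let h := taylorP P hs
  have hs0 := ne_zero_of_ord_eq_one hs
  -- units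
  have hu : ∀ u : OA P, (u : K) ≠ 0 → ord P (u : K) = 0 → HasOrd (ofPS (h.tayHom u)) 0 := by
    intro u hu0 hu1
    apply hasOrd_ofPS
    rw [h.constantCoeff_tayHom, Ne, rhoA_eq_zero, mem_Mge]
    rintro (h' | h')
    · exact hu0 h'
    · omega
  have hfrac : IsFractionRing (OA P) K := by
    refine IsFractionRing.of_field _ _ fun z => ?_
    rcases P.1.mem_or_inv_mem z with hz | hz
    · exact ⟨⟨z, hz⟩, 1, by rw [map_one, div_one]; rfl⟩
    · refine ⟨1, ⟨z⁻¹, hz⟩, ?_⟩
      rw [map_one]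
      change z = 1 / z⁻¹
      rw [one_div, inv_inv]
  have hpos : ∀ a : OA P, (a : K) ≠ 0 → HasOrd (ofPS (h.tayHom a)) (ord P (a : K)) := by
    intro a ha
    have h1 : 0 ≤ ord P (a : K) := (mem_OA_iff.1 a.2).resolve_left ha
    obtain ⟨n, hn⟩ := Int.eq_ofNat_of_zero_le h1
    have h2 : (s⁻¹) ^ n * (a : K) ≠ 0 := mul_ne_zero (pow_ne_zero _ (inv_ne_zero hs0)) ha
    have h3 : ord P ((s⁻¹) ^ n * (a : K)) = 0 := by
      rw [ord_mul P (pow_ne_zero _ (inv_ne_zero hs0)) ha, ord_pow, ord_inv, hs, hn]; ring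
    let u : OA P := ⟨(s⁻¹) ^ n * (a : K), mem_OA_iff.2 (Or.inr h3.ge)⟩
    have h4 : a = ⟨s, mem_OA_iff.2 (Or.inr (by omega))⟩ ^ n * u := by
      apply Subtype.ext
      change (a : K) = s ^ n * ((s⁻¹) ^ n * a)
      rw [← mul_assoc, ← mul_pow, mul_inv_cancel₀ hs0, one_pow, one_mul]
    have h5 : ofPS (h.tayHom a) = LX ^ n * ofPS (h.tayHom u) := by
      conv_lhs => rw [h4]
      rw [map_mul, map_pow, h.tayHom_s, map_mul, map_pow, ofPS_X]
    rw [h5, hn]
    have h6 := (hasOrd_LX_zpow (k := k) n).mul (hu u h2 h3)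
    rwa [add_zero, zpow_natCast] at h6
  have hinj : Function.Injective ((ofPS (C := k)).comp h.tayHom.toRingHom) := by
    rw [injective_iff_map_eq_zero]
    intro a ha
    by_contra hne
    exact (hpos a fun h0 => hne (Subtype.ext h0)).ne_zero ha
  have hlift : ∀ a : OA P, IsFractionRing.lift (K := K) hinj (a : K) = ofPS (h.tayHom a) :=
    fun a => IsFractionRing.lift_algebraMap hinj a
  have hord : ∀ y : K, y ≠ 0 → HasOrd (IsFractionRing.lift (K := K) hinj y) (ord P y) := by
    intro y hy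
    rcases P.1.mem_or_inv_mem y with hz | hz
    · have := hlift ⟨y, hz⟩
      rw [show IsFractionRing.lift (K := K) hinj y = _ from this]
      exact hpos ⟨y, hz⟩ hy
    · have h1 := hpos ⟨y⁻¹, hz⟩ (inv_ne_zero hy)
      have h2 := hlift ⟨y⁻¹, hz⟩
      rw [← h2] at h1
      have h3 := h1.inv
      change HasOrd (IsFractionRing.lift (K := K) hinj y⁻¹)⁻¹ (-ord P y⁻¹) at h3
      rwa [map_inv₀, inv_inv, ord_inv, neg_neg] at h3
  refine ⟨⟨IsFractionRing.lift (K := K) hinj, fun c => ?_⟩, ?_, ?_⟩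
  · have h1 := hlift (algebraMap k (OA P) c)
    change IsFractionRing.lift (K := K) hinj (algebraMap k K c) = _
    rw [show IsFractionRing.lift (K := K) hinj (algebraMap k K c) = _ from h1,
      AlgHom.commutes]
    exact ofPS_C c
  · have h1 := hlift ⟨s, mem_OA_iff.2 (Or.inr (by omega))⟩
    change IsFractionRing.lift (K := K) hinj s = _
    rw [show IsFractionRing.lift (K := K) hinj s = _ from h1, h.tayHom_s, ofPS_X]
    rfl
  · intro y hy
    exact (hord y hy).order_eq

/-- (E3) Laurent expansion at a pole of `T` with `T ↦ X^(-N)`. -/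
theorem exists_lau_pole [CharZero k] (P : Plk k K) (T : K) (N : ℕ) (hN : 0 < N)
    (hT : ord P T = -(N : ℤ)) :
    ∃ f : K →ₐ[k] LaurentSeries k, f T = HahnSeries.single (-(N : ℤ)) 1 ∧
      ∀ y, y ≠ 0 → (f y).order = ord P y := by
  have hac : IsAlgClosed k := CFF.ac K
  obtain ⟨s, hs0, hs⟩ := exists_unif P
  obtain ⟨f, -, hf⟩ := exists_lau P s hs
  have hT0 : T ≠ 0 := by
    rintro rfl
    rw [ord_zero] at hT
    omega
  have hfT0 : f T ≠ 0 := (_root_.map_ne_zero f).2 hT0
  have h1 : HasOrd (f T) (-(N : ℤ)) := by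
    have := hasOrd_order hfT0
    rwa [hf T hT0, hT] at this
  obtain ⟨v, hv, hv2⟩ := h1
  have hvu : IsUnit v := by
    rw [PowerSeries.isUnit_iff_constantCoeff]
    exact isUnit_iff_ne_zero.2 hv
  obtain ⟨w0, hw0, hw0'⟩ := exists_root_unit (k := k) hN.ne' hv
  -- `w = w0⁻¹`
  have hw0u : IsUnit w0 := by
    rw [PowerSeries.isUnit_iff_constantCoeff]
    exact isUnit_iff_ne_zero.2 hw0'
  obtain ⟨w, hw⟩ := hw0u.exists_right_inv
  have hwc : constantCoeff w ≠ 0 := by
    intro h0
    have := congrArg constantCoeff hw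
    rw [map_mul, h0, mul_zero, map_one] at this
    exact zero_ne_one this
  obtain ⟨g, hg1, hg2⟩ := exists_change hwc
  refine ⟨g.comp f, ?_, ?_⟩
  · have h2 : f T = (ofPS (X * w)) ^ (-(N : ℤ)) := by
      have h3 : ofPS (X * w) ^ N * f T = 1 := by
        rw [hv2, map_mul, ofPS_X, mul_pow, zpow_neg, zpow_natCast, ← hw0, map_pow]
        have h4 : ofPS w ^ N * ofPS w0 ^ N = 1 := by
          rw [← mul_pow, ← map_mul, mul_comm w w0, hw, map_one, one_pow]
        have h5 : (LX : LaurentSeries k) ^ N ≠ 0 := pow_ne_zero _ LX_ne_zero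
        field_simp
        linear_combination h4
      rw [zpow_neg, zpow_natCast]
      exact eq_inv_of_mul_eq_one_right h3
    change g (f T) = _
    rw [h2, map_zpow₀, hg1, LX_zpow]
  · intro y hy
    have hfy : f y ≠ 0 := (_root_.map_ne_zero f).2 hy
    have h2 := hasOrd_order hfy
    rw [hf y hy] at h2
    exact (hg2 _ _ h2).order_eq

end Place

end

end P025H552
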