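import Mathlib

/-!
# Norm estimate at the boundary (helper552)
-/

universe u v

namespace P025H552

noncomputable section

variable {E : Type u} [NormedField E] [IsUltrametricDist E]

lemma norm_natCast_le_one' (n : ℕ) : ‖(n : E)‖ ≤ 1 := by
  induction n with
  | zero => simp
  | succ n ih =>
    rw [Nat.cast_succ]
    exact (IsUltrametricDist.norm_add_le_max _ _).trans (max_le ih norm_one.le)

/-- `(1 + w)^p = 1 + w^p + p w r` with `‖r‖ ≤ 1`. -/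
lemma exists_one_add_pow {p : ℕ} (hp : p.Prime) {w : E} (hw : ‖w‖ ≤ 1) :
    ∃ r : E, ‖r‖ ≤ 1 ∧ (1 + w) ^ p = 1 + w ^ p + p * w * r := by
  refine ⟨_, ?_, by
    have := add_pow_prime_eq hp (1 : E) w
    rw [one_pow, mul_one] at this
    exact this⟩
  refine IsUltrametricDist.norm_sum_le_of_forall_le_of_nonneg zero_le_one fun i _ => ?_
  rw [norm_mul, norm_mul, norm_pow, norm_pow, norm_one, one_pow, one_mul]
  exact mul_le_one₀ (pow_le_one₀ (norm_nonneg _) hw) (norm_nonneg _) (norm_natCast_le_one' _)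

lemma norm_one_add_pow_sub_one_le {p : ℕ} (hp : p.Prime) {w : E} {ρ : ℝ} (hρ0 : 0 ≤ ρ)
    (hρ1 : ρ ≤ 1) (hρ : ρ ^ (p - 1) ≤ ‖(p : E)‖) (hw : ‖w‖ ≤ ρ) :
    ‖(1 + w) ^ p - 1‖ ≤ ‖(p : E)‖ * ρ := by
  obtain ⟨r, hr, h⟩ := exists_one_add_pow hp (hw.trans hρ1)
  have h1 : (1 + w) ^ p - 1 = w ^ p + p * w * r := by rw [h]; ring
  rw [h1]
  refine (IsUltrametricDist.norm_add_le_max _ _).trans (max_le ?_ ?_)
  · rw [norm_pow]
    calc ‖w‖ ^ p ≤ ρ ^ p := pow_le_pow_left₀ (norm_nonneg _) hw _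
      _ = ρ ^ (p - 1) * ρ := by rw [← pow_succ, Nat.sub_add_cancel hp.one_le]
      _ ≤ ‖(p : E)‖ * ρ := by gcongr
  · rw [norm_mul, norm_mul]
    calc ‖(p : E)‖ * ‖w‖ * ‖r‖ ≤ ‖(p : E)‖ * ρ * 1 := by gcongr
      _ = _ := mul_one _

lemma norm_pow_sub_one_le {p : ℕ} (hp : p.Prime) {y : E} {ρ : ℝ} (hρ0 : 0 ≤ ρ)
    (hρ1 : ρ ≤ 1) (hρ : ρ ^ (p - 1) ≤ ‖(p : E)‖) (hy : ‖y - 1‖ ≤ ρ) (m : ℕ) :
    ‖y ^ (p ^ m) - 1‖ ≤ ‖(p : E)‖ ^ m * ρ := by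
  have hp1 : ‖(p : E)‖ ≤ 1 := norm_natCast_le_one' p
  induction m with
  | zero => simpa using hy
  | succ m ih =>
    have h1 : ‖(p : E)‖ ^ m ≤ 1 := pow_le_one₀ (norm_nonneg _) hp1
    have h2 : ‖(p : E)‖ ^ m * ρ ≤ ρ := by
      calc _ ≤ 1 * ρ := by gcongr
        _ = ρ := one_mul _
    have h3 := norm_one_add_pow_sub_one_le hp (w := y ^ (p ^ m) - 1)
      (mul_nonneg (pow_nonneg (norm_nonneg _) _) hρ0) (h2.trans hρ1)
      ((pow_le_pow_left₀ (mul_nonneg (pow_nonneg (norm_nonneg _) _) hρ0) h2 _).trans hρ) ih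
    rw [add_sub_cancel, ← pow_mul, ← pow_succ] at h3
    calc _ ≤ _ := h3
      _ = _ := by rw [pow_succ ‖(p : E)‖]; ring

/-- `‖ω - 1‖^(p-1) ≤ ‖p‖` for `ω^p = 1`. -/
lemma norm_root_sub_one {p : ℕ} (hp : p.Prime) {ω : E} (hω : ω ^ p = 1) :
    ‖ω - 1‖ ≤ 1 ∧ ‖ω - 1‖ ^ (p - 1) ≤ ‖(p : E)‖ := by
  have h0 : ‖ω‖ = 1 := by
    have := congrArg norm hω
    rw [norm_pow, norm_one] at this
    exact (pow_eq_one_iff_of_nonneg (norm_nonneg _) hp.ne_zero).1 this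
  have h1 : ‖ω - 1‖ ≤ 1 := by
    rw [sub_eq_add_neg]
    refine (IsUltrametricDist.norm_add_le_max _ _).trans (max_le h0.le ?_)
    rw [norm_neg, norm_one]
  refine ⟨h1, ?_⟩
  rcases eq_or_ne (ω - 1) 0 with h | h
  · rw [h, norm_zero, zero_pow (Nat.sub_ne_zero_of_lt hp.one_lt)]
    exact norm_nonneg _
  obtain ⟨r, hr, h2⟩ := exists_one_add_pow hp h1
  rw [add_sub_cancel, hω] at h2
  have h3 : (ω - 1) ^ (p - 1) = - (p * r) := by
    apply mul_right_cancel₀ h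
    rw [← pow_succ, Nat.sub_add_cancel hp.one_le]
    linear_combination -h2
  rw [← norm_pow, h3, norm_neg, norm_mul]
  calc ‖(p : E)‖ * ‖r‖ ≤ ‖(p : E)‖ * 1 := by gcongr
    _ = _ := mul_one _

/-- (A1) `‖ζ - ζ'‖ < ‖y - ζ'‖`. -/
lemma norm_lt {p m : ℕ} (hp : p.Prime) (hm : 1 ≤ m) {ζ ζ' y : E} (hζ : ζ ^ p = 1)
    (hζ' : ζ' ^ p = 1) (hy : ‖((p ^ m : ℕ) : E)‖ < ‖y ^ (p ^ m) - 1‖) :
    ‖ζ - ζ'‖ < ‖y - ζ'‖ := by
  by_contra hcon
  push Not at hcon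
  have h0 : ‖ζ'‖ = 1 := by
    have := congrArg norm hζ'
    rw [norm_pow, norm_one] at this
    exact (pow_eq_one_iff_of_nonneg (norm_nonneg _) hp.ne_zero).1 this
  have hne : ζ' ≠ 0 := by
    rintro rfl
    rw [norm_zero] at h0
    exact zero_ne_one h0
  obtain ⟨h1, h2⟩ := norm_root_sub_one hp (ω := ζ / ζ') (by rw [div_pow, hζ, hζ', div_one])
  have h3 : ‖ζ / ζ' - 1‖ = ‖ζ - ζ'‖ := by
    rw [div_sub_one hne, norm_div, h0, div_one]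
  have h4 : ‖y / ζ' - 1‖ = ‖y - ζ'‖ := by
    rw [div_sub_one hne, norm_div, h0, div_one]
  rw [h3] at h1 h2
  have h5 := norm_pow_sub_one_le hp (norm_nonneg _) h1 h2 (h4.trans_le hcon) m
  have h6 : ζ' ^ (p ^ m) = 1 := by
    obtain ⟨k, rfl⟩ := Nat.exists_eq_add_of_le hm
    rw [pow_add, pow_one, pow_mul, hζ', one_pow]
  rw [div_pow, h6, div_one] at h5
  have h7 : ‖(p : E)‖ ^ m * ‖ζ - ζ'‖ ≤ ‖((p ^ m : ℕ) : E)‖ := by
    rw [Nat.cast_pow, norm_pow]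
    calc _ ≤ ‖(p : E)‖ ^ m * 1 := by gcongr
      _ = _ := mul_one _
  linarith

lemma norm_prime_ne {p l : ℕ} (hp : p.Prime) (hl : l.Prime) (hlp : l ≠ p) (hpC : ‖(p : E)‖ < 1) :
    ‖(l : E)‖ = 1 := by
  refine le_antisymm (norm_natCast_le_one' l) ?_
  by_contra hlt
  push Not at hlt
  have hco : IsCoprime (l : ℤ) (p : ℤ) := by
    rw [Nat.isCoprime_iff_coprime]
    exact (Nat.coprime_primes hl hp).2 hlp
  obtain ⟨a, b, hab⟩ := hco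
  have h1 : ∀ n : ℤ, ‖(n : E)‖ ≤ 1 := by
    intro n
    obtain ⟨k, rfl | rfl⟩ := n.eq_nat_or_neg
    · simpa using norm_natCast_le_one' (E := E) k
    · simpa using norm_natCast_le_one' (E := E) k
  have h2 : (1 : E) = a * l + b * p := by exact_mod_cast congrArg (Int.cast (R := E)) hab.symm
  have h3 : ‖(1 : E)‖ < 1 := by
    rw [h2]
    refine (IsUltrametricDist.norm_add_le_max _ _).trans_lt (max_lt ?_ ?_)
    · rw [norm_mul]
      exact (mul_le_of_le_one_left (norm_nonneg _) (h1 a)).trans_lt hlt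
    · rw [norm_mul]
      exact (mul_le_of_le_one_left (norm_nonneg _) (h1 b)).trans_lt hpC
  rw [norm_one] at h3
  exact lt_irrefl _ h3

end

end P025H552
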