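import Vale.Agent.P025.R2.H552.Lau

/-!
# The root `(1 + b X^e)^(1/q)` and roots of unity (helper552)
-/

universe u v

namespace P025H552

open PowerSeries

noncomputable section

variable {C : Type u} [Field C]

lemma exists_root_series [CharZero C] {q e : ℕ} (hq : q ≠ 0) (he : e ≠ 0) (b : C) :
    ∃ R : C⟦X⟧, R ^ q = 1 + PowerSeries.C b * X ^ e ∧ constantCoeff R = 1 := by
  let B : C⟦X⟧ := binomialSeries C (1 / q : ℚ)
  have hB : B ^ q = 1 + X := by
    have h1 : ∀ n : ℕ, B ^ n = binomialSeries C ((n : ℚ) * (1 / q)) := by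
      intro n
      induction n with
      | zero => simp
      | succ n ih =>
        rw [pow_succ, ih, Nat.cast_succ, add_mul, one_mul, binomialSeries_add]
    rw [h1, mul_one_div, div_self (by exact_mod_cast hq)]
    have h2 := binomialSeries_nat (R := ℚ) (A := C) 1
    simpa using h2
  have hs : HasSubst (PowerSeries.C b * X ^ e : C⟦X⟧) := by
    apply HasSubst.of_constantCoeff_zero'
    simp [he]
  refine ⟨B.subst (PowerSeries.C b * X ^ e : C⟦X⟧), ?_, ?_⟩
  · rw [← subst_pow hs, hB, subst_add hs, subst_X hs]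
    congr 1
    have := map_one (substAlgHom (R := C) (S := C) hs)
    rwa [coe_substAlgHom] at this
  · have h3 : (B.subst (PowerSeries.C b * X ^ e : C⟦X⟧)) =
        1 + (B.subst (PowerSeries.C b * X ^ e : C⟦X⟧) - 1) := by ring
    have h4 := constantCoeff_subst_eq_zero (R := C) (S := C) (τ := Unit)
      (a := (PowerSeries.C b * X ^ e : C⟦X⟧)) (by
        change constantCoeff (PowerSeries.C b * X ^ e : C⟦X⟧) = 0
        simp [he]) (B - 1) (by simp [B])
    rw [subst_sub hs] at h4
    have h5 : (1 : C⟦X⟧).subst (PowerSeries.C b * X ^ e : C⟦X⟧) = (1 : C⟦X⟧) := by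
      have := map_one (substAlgHom (R := C) (S := C) hs)
      rwa [coe_substAlgHom] at this
    rw [h5] at h4
    have h6 : constantCoeff (B.subst (PowerSeries.C b * X ^ e : C⟦X⟧) - 1) = 0 := h4
    rw [map_sub, map_one, sub_eq_zero] at h6
    exact h6

lemma exists_prim [CharZero C] [IsAlgClosed C] {n : ℕ} (hn : n ≠ 0) :
    ∃ ζ : C, IsPrimitiveRoot ζ n := by
  have : NeZero n := ⟨hn⟩
  have : NeZero (n : C) := ⟨by exact_mod_cast hn⟩
  exact HasEnoughRootsOfUnity.exists_primitiveRoot C n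

lemma exists_const_of_pow_eq [CharZero C] [IsAlgClosed C] {K : Type*} [Field K] [Algebra C K]
    {n : ℕ} (hn : n ≠ 0) {x y : K} (hy : y ≠ 0) (h : x ^ n = y ^ n) :
    ∃ ξ : C, ξ ^ n = 1 ∧ x = algebraMap C K ξ * y := by
  have : NeZero n := ⟨hn⟩
  obtain ⟨ζ, hζ⟩ := exists_prim (C := C) hn
  have h1 : IsPrimitiveRoot (algebraMap C K ζ) n :=
    hζ.map_of_injective (algebraMap C K).injective
  have h2 : (x / y) ^ n = 1 := by rw [div_pow, h, div_self (pow_ne_zero _ hy)]
  obtain ⟨i, -, hi⟩ := h1.eq_pow_of_pow_eq_one h2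
  refine ⟨ζ ^ i, ?_, ?_⟩
  · rw [← pow_mul, mul_comm, pow_mul, hζ.pow_eq_one, one_pow]
  · rw [map_pow, hi, div_mul_cancel₀ _ hy]

lemma rescale_root [CharZero C] [IsAlgClosed C] {q e : ℕ} (hq : q ≠ 0) (b : C)
    {R : C⟦X⟧} (hR : R ^ q = 1 + PowerSeries.C b * X ^ e) (hR1 : constantCoeff R = 1)
    {ε : C} (hε : ε ^ e = 1) : rescale ε R = R := by
  have h1 : (rescale ε R) ^ q = R ^ q := by
    rw [← map_pow, hR, map_add, map_mul, map_pow, map_one]
    congr 1
    have h2 : rescale ε (PowerSeries.C b) = PowerSeries.C b := by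
      ext n
      rw [coeff_rescale, coeff_C]
      split_ifs with h
      · simp [h]
      · simp
    have h3 : rescale ε (X : C⟦X⟧) = PowerSeries.C ε * X := by
      ext n
      rw [coeff_rescale, coeff_C_mul, coeff_X]
      split_ifs with h
      · simp [h]
      · simp
    rw [h2, h3, mul_pow, ← map_pow, hε]; simp
  have hR0 : R ≠ 0 := by
    intro h; rw [h] at hR1; simp at hR1
  have h4 : (ofPS (rescale ε R)) ^ q = (ofPS R) ^ q := by rw [← map_pow, h1, map_pow]
  obtain ⟨ξ, -, h5⟩ := exists_const_of_pow_eq (C := C) hq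
    (fun h => hR0 (ofPS_inj (by rw [h, map_zero]))) h4
  rw [← ofPS_C, ← map_mul] at h5
  have h6 := ofPS_inj h5
  have h7 : constantCoeff (rescale ε R) = constantCoeff R := by
    rw [← coeff_zero_eq_constantCoeff_apply, coeff_rescale]; simp
  have h8 := congrArg constantCoeff h6
  rw [h7, map_mul, hR1, constantCoeff_C, mul_one] at h8
  rw [h6, ← h8]; simp

end

end P025H552
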