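import Vale.Agent.P025.R2.H552.Root

/-!
# Kummer extension `E = F(y)`, `y ^ q = x`, `q = p ^ m` (helper552)
-/

universe u v w

namespace P025H552

open Polynomial

noncomputable section

set_option linter.unusedSectionVars false

variable {C : Type u} [Field C] [CharZero C] [IsAlgClosed C]
  {F : Type v} [Field F] [Algebra C F] {E : Type w} [Field E] [Algebra F E] [Algebra C E]
  [IsScalarTower C F E]

lemma adjoin_eq_top {q : ℕ} (hq : q ≠ 0) {x : F} {y : E} (hy : y ^ q = algebraMap F E x)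
    (hE : IntermediateField.adjoin F {y} = ⊤) : Algebra.adjoin F {y} = ⊤ := by
  have hint : IsIntegral F y :=
    ⟨X ^ q - Polynomial.C x, monic_X_pow_sub_C x hq, by simp [hy]⟩
  have h1 := IntermediateField.adjoin_simple_toSubalgebra_of_isAlgebraic (F := F) hint.isAlgebraic
  rw [← h1, hE]; rfl

include C in
lemma isGalois_kummer {q : ℕ} (hq : q ≠ 0) {x : F} (hx : x ≠ 0) {y : E}
    (hy : y ^ q = algebraMap F E x) (hE : IntermediateField.adjoin F {y} = ⊤) :
    FiniteDimensional F E ∧ IsGalois F E := by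
  have : CharZero F := charZero_of_injective_algebraMap (algebraMap C F).injective
  have : NeZero q := ⟨hq⟩
  obtain ⟨ζ, hζ⟩ := exists_prim (C := C) hq
  have h1 : IsPrimitiveRoot (algebraMap C E ζ) q :=
    hζ.map_of_injective (algebraMap C E).injective
  let P : F[X] := X ^ q - Polynomial.C x
  have hP : P ≠ 0 := (monic_X_pow_sub_C x hq).ne_zero
  have hsp : (P.map (algebraMap F E)).Splits := by
    have := X_pow_sub_C_splits_of_isPrimitiveRoot h1 hy
    simpa [P] using this
  have hsf : P.IsSplittingField F E := by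
    refine ⟨hsp, ?_⟩
    have h2 : y ∈ P.rootSet E := by
      rw [mem_rootSet]
      exact ⟨hP, by simp [P, hy]⟩
    rw [eq_top_iff, ← adjoin_eq_top hq hy hE]
    exact Algebra.adjoin_mono (by simpa using h2)
  have hsep : P.Separable := separable_X_pow_sub_C x (by exact_mod_cast hq) hx
  exact ⟨IsSplittingField.finiteDimensional E P, IsGalois.of_separable_splitting_field hsep⟩

/-- every automorphism multiplies `y` by a constant root of unity. -/
lemma exists_sigma_y {q : ℕ} (hq : q ≠ 0) {x : F} (hx : x ≠ 0) {y : E}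
    (hy : y ^ q = algebraMap F E x) (σ : E ≃ₐ[F] E) :
    ∃ η : C, η ^ q = 1 ∧ σ y = algebraMap C E η * y := by
  have hy0 : y ≠ 0 := by
    intro h
    rw [h, zero_pow hq] at hy
    exact hx ((algebraMap F E).injective (by rw [← hy, map_zero]))
  apply exists_const_of_pow_eq hq hy0
  rw [← map_pow, hy, AlgEquiv.commutes]

lemma sigma_const (σ : E ≃ₐ[F] E) (c : C) : σ (algebraMap C E c) = algebraMap C E c := by
  rw [IsScalarTower.algebraMap_apply C F E, AlgEquiv.commutes]

lemma sigma_pow_y {y : E} {η : C} (σ : E ≃ₐ[F] E) (h : σ y = algebraMap C E η * y) (n : ℕ) :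
    (σ ^ n) y = algebraMap C E (η ^ n) * y := by
  induction n with
  | zero => simp
  | succ n ih =>
    rw [pow_succ, AlgEquiv.mul_apply, h, map_mul, sigma_const, ih, pow_succ, map_mul]; ring

/-- if `y ∉ F` then all `p`-th roots of unity occur as `σ y / y`. -/
lemma exists_sigma {p m : ℕ} (hp : p.Prime) {x : F} (hx : x ≠ 0) {y : E}
    (hy : y ^ (p ^ m) = algebraMap F E x) (hE : IntermediateField.adjoin F {y} = ⊤)
    (hnF : ∀ g : F, algebraMap F E g ≠ y) {ω : C} (hω : ω ^ p = 1) :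
    ∃ σ : E ≃ₐ[F] E, σ y = algebraMap C E ω * y := by
  have hq : p ^ m ≠ 0 := pow_ne_zero _ hp.ne_zero
  obtain ⟨hfd, hgal⟩ := isGalois_kummer (C := C) hq hx hy hE
  have h1 : y ∉ (⊥ : IntermediateField F E) := by
    rw [IntermediateField.mem_bot]
    rintro ⟨g, hg⟩
    exact hnF g hg
  rw [IsGalois.mem_bot_iff_fixed] at h1
  push Not at h1
  obtain ⟨σ, hσ⟩ := h1
  obtain ⟨η, hη, hσy⟩ := exists_sigma_y (C := C) hq hx hy σ
  have hη1 : η ≠ 1 := by
    rintro rfl
    exact hσ (by rw [hσy]; simp)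
  obtain ⟨k, hk, hord⟩ : ∃ k ≤ m, orderOf η = p ^ k :=
    (Nat.dvd_prime_pow hp).1 (orderOf_dvd_of_pow_eq_one hη)
  have hk0 : k ≠ 0 := by
    rintro rfl
    rw [pow_zero, orderOf_eq_one_iff] at hord
    exact hη1 hord
  obtain ⟨j, rfl⟩ := Nat.exists_eq_succ_of_ne_zero hk0
  have hprim : IsPrimitiveRoot (η ^ (p ^ j)) p := by
    have h2 : IsPrimitiveRoot η (p ^ (j + 1)) := by
      rw [← Nat.succ_eq_add_one, ← hord]; exact IsPrimitiveRoot.orderOf η
    exact h2.pow (pow_pos hp.pos _) (by rw [pow_succ])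
  have : NeZero p := ⟨hp.ne_zero⟩
  obtain ⟨i, -, hi⟩ := hprim.eq_pow_of_pow_eq_one hω
  refine ⟨σ ^ (p ^ j * i), ?_⟩
  rw [sigma_pow_y σ hσy, pow_mul, hi]

end

end P025H552
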