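import Vale.Agent.P025.R2.H552.Core
import Vale.Agent.P025.R2.H552.Gal

/-!
# `(y - ζ) / (y - ζ')` is not an `l`-th power: abstract core, main theorem (helper552)
-/

universe u v w

namespace P025H552

open PowerSeries

noncomputable section

variable {C : Type u} [Field C] [CharZero C] [IsAlgClosed C]
  {F : Type v} [Field F] [Algebra C F] {E : Type w} [Field E] [Algebra F E] [Algebra C E]
  [IsScalarTower C F E]


/-- embedding of `E` in Laurent series, `y ↦ ξ R`. -/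
lemma exists_emb (φ : F →ₐ[C] (LaurentSeries C)) {q : ℕ} (hq : q ≠ 0) {x : F} {R : C⟦X⟧}
    (hR1 : constantCoeff R = 1) (hx : φ x = ofPS R ^ q) {y : E}
    (hy : y ^ q = algebraMap F E x) (hE : IntermediateField.adjoin F {y} = ⊤) :
    ∃ (ψ : E →+* (LaurentSeries C)) (ξ : C), ξ ^ q = 1 ∧ (∀ z : F, ψ (algebraMap F E z) = φ z) ∧
      ψ y = algebraMap C (LaurentSeries C) ξ * ofPS R := by
  letI : Algebra F (LaurentSeries C) := φ.toRingHom.toAlgebra
  have hphi : ∀ z : F, algebraMap F (LaurentSeries C) z = φ z := fun z => rfl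
  have : NeZero q := ⟨hq⟩
  obtain ⟨ζ, hζ⟩ := exists_prim (C := C) hq
  have h1 : IsPrimitiveRoot (algebraMap C (LaurentSeries C) ζ) q :=
    hζ.map_of_injective (algebraMap C (LaurentSeries C)).injective
  have hint : IsIntegral F y :=
    ⟨Polynomial.X ^ q - Polynomial.C x, Polynomial.monic_X_pow_sub_C x hq, by simp [hy]⟩
  have hdvd : minpoly F y ∣ Polynomial.X ^ q - Polynomial.C x :=
    minpoly.dvd _ _ (by simp [hy])
  have hsp : ((Polynomial.X ^ q - Polynomial.C x : Polynomial F).map (algebraMap F (LaurentSeries C))).Splits := by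
    have := X_pow_sub_C_splits_of_isPrimitiveRoot h1 (hx.symm.trans (hphi x).symm)
    simpa using this
  have hne : (Polynomial.X ^ q - Polynomial.C x : Polynomial F).map (algebraMap F (LaurentSeries C)) ≠ 0 := by
    rw [Polynomial.map_ne_zero_iff (algebraMap F (LaurentSeries C)).injective]
    exact (Polynomial.monic_X_pow_sub_C x hq).ne_zero
  have hsp2 : ((minpoly F y).map (algebraMap F (LaurentSeries C))).Splits :=
    hsp.of_dvd hne (Polynomial.map_dvd _ hdvd)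
  obtain ⟨ψ⟩ := IntermediateField.nonempty_algHom_of_adjoin_splits (F := F) (E := E) (K := (LaurentSeries C))
    (S := {y}) (by
      intro s hs
      rw [Set.mem_singleton_iff] at hs
      subst hs
      exact ⟨hint, hsp2⟩) hE
  have hR0 : ofPS R ≠ 0 := (hasOrd_ofPS (u := R) (by rw [hR1]; exact one_ne_zero)).ne_zero
  obtain ⟨ξ, hξ, h2⟩ := exists_const_of_pow_eq (C := C) (x := ψ y) (y := ofPS R) hq hR0 (by
    rw [← map_pow, hy, AlgHom.commutes, hphi, hx])
  exact ⟨ψ.toRingHom, ξ, hξ, fun z => ψ.commutes z, h2⟩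

/-- simultaneous action of `T` on all conjugate embeddings. -/
lemma exists_T (φ : F →ₐ[C] (LaurentSeries C)) {ε : C} (hε0 : ε ≠ 0) (hτ : ∀ x : F, ∃ x' : F, φ x' = T hε0 (φ x))
    {q : ℕ} (hq : q ≠ 0) {x : F} (hx0 : x ≠ 0) {R : C⟦X⟧} (hT : rescale ε R = R) {y : E}
    (hy : y ^ q = algebraMap F E x) (hE : IntermediateField.adjoin F {y} = ⊤)
    {ψ : E →+* (LaurentSeries C)} {ξ : C} (hψ : ∀ z : F, ψ (algebraMap F E z) = φ z)
    (hψy : ψ y = algebraMap C (LaurentSeries C) ξ * ofPS R) (z : E) :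
    ∃ z' : E, ∀ σ : E ≃ₐ[F] E, T hε0 (ψ (σ z)) = ψ (σ z') := by
  have hc : ∀ c : C, ψ (algebraMap C E c) = algebraMap C (LaurentSeries C) c := by
    intro c
    rw [IsScalarTower.algebraMap_apply C F E, hψ, AlgHom.commutes]
  have hz : z ∈ Algebra.adjoin F {y} := by
    rw [adjoin_eq_top hq hy hE]; exact Algebra.mem_top
  induction hz using Algebra.adjoin_induction with
  | mem z hz =>
    rw [Set.mem_singleton_iff] at hz
    subst hz
    refine ⟨z, fun σ => ?_⟩
    obtain ⟨η, -, hη⟩ := exists_sigma_y (C := C) hq hx0 hy σ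
    rw [hη, map_mul, hc, hψy, map_mul, map_mul, T_algebraMap, T_algebraMap, T_ofPS, hT]
  | algebraMap r =>
    obtain ⟨r', hr'⟩ := hτ r
    refine ⟨algebraMap F E r', fun σ => ?_⟩
    rw [AlgEquiv.commutes, AlgEquiv.commutes, hψ, hψ, hr']
  | add z₁ z₂ _ _ h1 h2 =>
    obtain ⟨w₁, h1⟩ := h1
    obtain ⟨w₂, h2⟩ := h2
    exact ⟨w₁ + w₂, fun σ => by rw [map_add, map_add, map_add, map_add, map_add, h1, h2]⟩
  | mul z₁ z₂ _ _ h1 h2 =>
    obtain ⟨w₁, h1⟩ := h1
    obtain ⟨w₂, h2⟩ := h2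
    exact ⟨w₁ * w₂, fun σ => by rw [map_mul, map_mul, map_mul, map_mul, map_mul, h1, h2]⟩

open Classical in
/-- **Core of (6.4)(a), part (iv).** -/
theorem core (φ : F →ₐ[C] (LaurentSeries C)) {e : ℕ} (he : e ≠ 0) {ε : C} (hε : IsPrimitiveRoot ε e)
    (hε0 : ε ≠ 0) (hτ : ∀ x : F, ∃ x' : F, φ x' = T hε0 (φ x)) {s : F} (hs : φ s = LX)
    {p m l : ℕ} (hp : p.Prime) (hl : l.Prime) (hlp : l ≠ p) (hle : l ∣ e)
    {b : C} (hb : b ≠ 0) (hnp : ∀ g : F, g ^ (p ^ m) ≠ 1 + algebraMap C F b * s ^ e)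
    {ζ ζ' : C} (hζ : ζ ^ p = 1) (hζ' : ζ' ^ p = 1) (hne : ζ ≠ ζ') {y : E}
    (hy : y ^ (p ^ m) = algebraMap F E (1 + algebraMap C F b * s ^ e))
    (hE : IntermediateField.adjoin F {y} = ⊤) :
    ∃ ξ : C, ξ ^ (p ^ m) = 1 ∧
      ∀ z : E, z ^ l ≠ (algebraMap C E ξ * y - algebraMap C E ζ) /
        (algebraMap C E ξ * y - algebraMap C E ζ') := by
  have hq : p ^ m ≠ 0 := pow_ne_zero _ hp.ne_zero
  obtain ⟨R, hR, hR1⟩ := exists_root_series hq he b
  set x : F := 1 + algebraMap C F b * s ^ e with hxdef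
  have hx : φ x = ofPS R ^ (p ^ m) := by
    rw [← map_pow, hR, hxdef, map_add, map_mul, map_pow, hs, map_one, map_add, map_mul, map_pow,
      map_one, ofPS_X, ofPS_C, AlgHom.commutes]
  have hR0 : ofPS R ≠ 0 := (hasOrd_ofPS (u := R) (by rw [hR1]; exact one_ne_zero)).ne_zero
  have hx0 : x ≠ 0 := by
    intro h
    rw [h, map_zero] at hx
    exact pow_ne_zero _ hR0 hx.symm
  have hT : rescale ε R = R := rescale_root hq b hR hR1 hε.pow_eq_one
  obtain ⟨ψ, ξ₀, hξ₀, hψ, hψy⟩ := exists_emb φ hq hR1 hx hy hE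
  have hξ₀0 : ξ₀ ≠ 0 := by
    rintro rfl
    rw [zero_pow hq] at hξ₀
    exact zero_ne_one hξ₀
  have hc : ∀ c : C, ψ (algebraMap C E c) = algebraMap C (LaurentSeries C) c := by
    intro c
    rw [IsScalarTower.algebraMap_apply C F E, hψ, AlgHom.commutes]
  refine ⟨ξ₀⁻¹, by rw [inv_pow, hξ₀, inv_one], fun G hG => ?_⟩
  -- the value of conjugates of `H`
  have hω0 : ∀ ω : C, ω ^ p = 1 → ω ≠ 0 := by
    rintro ω h rfl
    rw [zero_pow hp.ne_zero] at h
    exact zero_ne_one h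
  have hH : ∀ (σ : E ≃ₐ[F] E) (ω : C), σ y = algebraMap C E ω * y →
      ψ (σ G) ^ l = (algebraMap C (LaurentSeries C) ω * ofPS R - algebraMap C (LaurentSeries C) ζ) /
        (algebraMap C (LaurentSeries C) ω * ofPS R - algebraMap C (LaurentSeries C) ζ') := by
    intro σ ω hσ
    have h1 : ψ (algebraMap C E ξ₀⁻¹ * (algebraMap C E ω * y)) = algebraMap C (LaurentSeries C) ω * ofPS R := by
      rw [map_mul, map_mul, hc, hc, hψy, ← mul_assoc, ← mul_assoc, ← map_mul, ← map_mul]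
      congr 2
      field_simp
    rw [← map_pow, ← map_pow, hG, map_div₀, map_div₀, map_sub, map_sub, map_sub, map_sub, map_mul,
      hσ, sigma_const, sigma_const, sigma_const, h1, hc, hc]
  have hG0 : G ≠ 0 := by
    intro h
    have h1 := hH AlgEquiv.refl 1 (by simp)
    rw [h] at h1
    simp only [AlgEquiv.coe_refl, id_eq, map_zero, zero_pow hl.ne_zero] at h1
    have h2 := (hasOrd_root_sub hq hb hR hR1 (ζ := ζ) one_ne_zero).ne_zero
    have h3 := (hasOrd_root_sub hq hb hR hR1 (ζ := ζ') one_ne_zero).ne_zero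
    exact div_ne_zero h2 h3 h1.symm
  -- the eigenvalue
  obtain ⟨G', hG'⟩ := exists_T φ hε0 hτ hq hx0 hT hy hE hψ hψy G
  obtain ⟨lam, -, hlam⟩ : ∃ lam : C, lam ^ l = 1 ∧ G' = algebraMap C E lam * G := by
    apply exists_const_of_pow_eq hl.ne_zero hG0
    apply ψ.injective
    have h1 := hG' AlgEquiv.refl
    have h2 := hH AlgEquiv.refl 1 (by simp)
    simp only [AlgEquiv.coe_refl, id_eq, map_one, one_mul] at h1 h2
    rw [map_pow, map_pow, ← h1, ← map_pow, h2, map_div₀, map_sub, map_sub, T_ofPS, hT,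
      T_algebraMap, T_algebraMap]
  have key : ∀ ω : C, ω ^ p = 1 → ∃ k : ℤ, lam = ε ^ k ∧
      (l : ℤ) * k = (if ω = ζ then (e : ℤ) else 0) - (if ω = ζ' then (e : ℤ) else 0) := by
    intro ω hω
    have hnF : ∀ g : F, algebraMap F E g ≠ y := by
      intro g hg
      refine hnp g ((algebraMap F E).injective ?_)
      rw [map_pow, hg, hy]
    obtain ⟨σ, hσ⟩ := exists_sigma (C := C) hp hx0 hy hE hnF hω
    have h1 : ψ (σ G) ≠ 0 := by
      rw [map_ne_zero_iff _ ψ.injective, map_ne_zero_iff _ σ.injective]; exact hG0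
    obtain ⟨k, hk⟩ := exists_hasOrd h1
    refine ⟨k, ?_, ?_⟩
    · obtain ⟨u, hu, h2⟩ := hk
      have h3 := hG' σ
      rw [hlam, map_mul, sigma_const, map_mul, hc, h2] at h3
      exact T_eigen hε0 hu h3
    · have h2 := hk.pow l
      rw [hH σ ω hσ] at h2
      exact h2.unique ((hasOrd_root_sub hq hb hR hR1 (hω0 ω hω)).div
        (hasOrd_root_sub hq hb hR hR1 (hω0 ω hω)))
  obtain ⟨e', rfl⟩ := hle
  have hl0 : (l : ℤ) ≠ 0 := by exact_mod_cast hl.ne_zero
  have he' : e' ≠ 0 := by rintro rfl; simp at he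
  obtain ⟨k₁, h1, h1'⟩ := key ζ hζ
  obtain ⟨k₂, h2, h2'⟩ := key ζ' hζ'
  rw [if_pos rfl, if_neg hne] at h1'
  rw [if_neg hne.symm, if_pos rfl] at h2'
  have hk₁ : k₁ = e' := by
    apply mul_left_cancel₀ hl0
    rw [h1']; push_cast; ring
  have hk₂ : k₂ = -e' := by
    apply mul_left_cancel₀ hl0
    rw [h2']; push_cast; ring
  subst hk₁ hk₂
  have h3 : ε ^ (2 * e') = 1 := by
    have h4 : ε ^ (e' : ℤ) = ε ^ (-(e' : ℤ)) := h1.symm.trans h2
    have h5 : ε ^ ((e' : ℤ) + e') = 1 := by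
      rw [zpow_add₀ hε0]
      nth_rewrite 2 [h4]
      rw [← zpow_add₀ hε0, add_neg_cancel, zpow_zero]
    rw [two_mul]
    exact_mod_cast h5
  have h4 : l ∣ 2 := by
    have := hε.dvd_of_pow_eq_one _ h3
    exact (Nat.mul_dvd_mul_iff_right (Nat.pos_of_ne_zero he')).1 this
  have hl2 : l = 2 := (Nat.prime_dvd_prime_iff_eq hl Nat.prime_two).1 h4
  have hp3 : 2 < p := by
    rcases hp.two_le.lt_or_eq with h | h
    · exact h
    · exact absurd (hl2.trans h) hlp
  -- a third root of unity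
  obtain ⟨ω, hω, hω1, hω2⟩ : ∃ ω : C, ω ^ p = 1 ∧ ω ≠ ζ ∧ ω ≠ ζ' := by
    obtain ⟨μ, hμ⟩ := exists_prim (C := C) hp.ne_zero
    by_contra hcon
    push Not at hcon
    have hsub : (Finset.range p).image (fun i => μ ^ i) ⊆ {ζ, ζ'} := by
      intro w hw
      rw [Finset.mem_image] at hw
      obtain ⟨i, -, rfl⟩ := hw
      rw [Finset.mem_insert, Finset.mem_singleton]
      by_cases h : μ ^ i = ζ
      · exact Or.inl h
      · exact Or.inr (hcon _ (by rw [← pow_mul, mul_comm, pow_mul, hμ.pow_eq_one, one_pow]) h)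
    have hcard := Finset.card_le_card hsub
    rw [Finset.card_image_of_injOn, Finset.card_range] at hcard
    · have := hcard.trans Finset.card_le_two
      omega
    · intro i hi j hj hij
      exact hμ.pow_inj (Finset.mem_range.1 hi) (Finset.mem_range.1 hj) hij
  obtain ⟨k₃, h5, h5'⟩ := key ω hω
  rw [if_neg hω1, if_neg hω2, sub_zero] at h5'
  have hk₃ : k₃ = 0 := by
    rcases mul_eq_zero.1 h5' with h | h
    · exact absurd h hl0
    · exact h
  rw [hk₃, zpow_zero] at h5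
  rw [h5] at h1
  have h6 : ε ^ e' = 1 := by exact_mod_cast h1.symm
  have h7 : l * e' ∣ 1 * e' := by simpa using hε.dvd_of_pow_eq_one _ h6
  have h8 : l ∣ 1 := (Nat.mul_dvd_mul_iff_right (Nat.pos_of_ne_zero he')).1 h7
  exact hl.one_lt.ne' (Nat.dvd_one.1 h8)

end

end P025H552
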