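import Vale.Agent.P025.R2.H373.Gauss
import Vale.Agent.P025.R2.H552.PS
import Vale.Agent.P025.R2.H552.Core2

/-!
# Taylor expansion at infinity of `F2 C` (helper552)
-/

universe u v w

namespace P025H552

open Polynomial P025H373

noncomputable section

set_option linter.unusedSectionVars false

variable {C : Type u} [NontriviallyNormedField C] [IsUltrametricDist C] [CompleteSpace C]
  [IsAlgClosed C]


lemma tt_ne_zero : tt C ≠ 0 := by
  have h : ‖tt C‖ = 1 := norm_tt
  intro h0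
  rw [h0, norm_zero] at h
  exact zero_ne_one h

/-- `s = 1/t` in `A2` -/
def sA : A2 C := ⟨(tt C)⁻¹, inv_tt_mem_A2⟩

lemma taylorData : TaylorData (evInf C) (sA (C := C)) where
  ne_zero := fun h => inv_ne_zero (tt_ne_zero (C := C)) (congrArg Subtype.val h)
  rho_s := by
    rw [evInf_eq_zero_iff]
    change tt C * (tt C)⁻¹ ∈ A2 C
    rw [mul_inv_cancel₀ tt_ne_zero]
    exact one_mem _
  dvd x hx := by
    rw [evInf_eq_zero_iff] at hx
    refine ⟨⟨_, hx⟩, Subtype.ext ?_⟩
    change (x : F0 C) = (tt C)⁻¹ * (tt C * (x : F0 C))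
    rw [← mul_assoc, inv_mul_cancel₀ tt_ne_zero, one_mul]

/-- Taylor expansion at infinity on `A2`. -/
def tay2 : A2 C →ₐ[C] PowerSeries C := (taylorData (C := C)).tayHom

lemma tay2_s : tay2 (sA (C := C)) = PowerSeries.X := (taylorData (C := C)).tayHom_s

lemma tay2_aeval (P : C[X]) : tay2 (aeval (sA (C := C)) P) = (P : PowerSeries C) := by
  rw [← Polynomial.aeval_algHom_apply, tay2_s]
  have : aeval (PowerSeries.X : PowerSeries C) = Polynomial.coeToPowerSeries.algHom (R := C) C := by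
    ext
    simp
  rw [this]; simp

lemma aeval_sA_ne_zero {P : C[X]} (hP : P ≠ 0) : tay2 (aeval (sA (C := C)) P) ≠ 0 := by
  rw [tay2_aeval]
  exact fun h => hP (Polynomial.coe_injective C (by rw [h, Polynomial.coe_zero]))

/-- `P s^d` is a polynomial in `s`. -/
lemma aeval_reflect {P : C[X]} {d : ℕ} (hd : P.natDegree ≤ d) :
    ((aeval (sA (C := C)) (P.reflect d) : A2 C) : F0 C) = aeval (tt C) P * ((tt C)⁻¹) ^ d := by
  have h1 : ((aeval (sA (C := C)) (P.reflect d) : A2 C) : F0 C) =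
      aeval ((tt C)⁻¹) (P.reflect d) :=
    (Polynomial.aeval_algHom_apply (A2 C).val _ _).symm
  rw [h1]
  let inv : Invertible (tt C) := invertibleOfNonzero tt_ne_zero
  have h2 := eval₂_reflect_mul_pow (algebraMap C (F0 C)) (tt C) d P hd
  rw [invOf_eq_inv] at h2
  rw [aeval_def, aeval_def, ← h2, mul_assoc, ← mul_pow, mul_inv_cancel₀ tt_ne_zero, one_pow,
    mul_one]

lemma eq_div_poly (P Q : C[X]) :
    algebraMap (RatFunc C) (F0 C) (algebraMap C[X] (RatFunc C) P / algebraMap C[X] (RatFunc C) Q) =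
      aeval (tt C) P / aeval (tt C) Q := by
  rw [map_div₀, algebraMap_poly_eq, algebraMap_poly_eq]; rfl

lemma aeval_tt_ne_zero {P : C[X]} (hP : P ≠ 0) : aeval (tt C) P ≠ 0 := by
  have h : aeval (tt C) P =
      algebraMap (RatFunc C) (F0 C) (algebraMap C[X] (RatFunc C) P) := by
    rw [algebraMap_poly_eq]; rfl
  rw [h]
  exact (_root_.map_ne_zero _).2 (RatFunc.algebraMap_ne_zero hP)

/-- every rational function is a quotient of polynomials in `s = 1/t` -/
lemma ratFunc_eq_div {P Q : C[X]} {d : ℕ} (h1 : P.natDegree ≤ d)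
    (h2 : Q.natDegree ≤ d) :
    aeval (tt C) P / aeval (tt C) Q =
      ((aeval (sA (C := C)) (P.reflect d) : A2 C) : F0 C) /
        ((aeval (sA (C := C)) (Q.reflect d) : A2 C) : F0 C) := by
  rw [aeval_reflect h1, aeval_reflect h2, mul_div_mul_right]
  exact pow_ne_zero _ (inv_ne_zero tt_ne_zero)

lemma tay2_ne_zero {x : A2 C} (hx : x ≠ 0) : tay2 x ≠ 0 := by
  have hx0 : (x : F0 C) ≠ 0 := fun h => hx (Subtype.ext h)
  obtain ⟨g, hg, hg0, h, hh, hn, e⟩ := weierstrass_A2 x.2 hx0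
  obtain ⟨P, S, hS, hd, hc, rfl⟩ := hg
  have hd' : P.natDegree ≤ S.natDegree := natDegree_le_natDegree hd
  have hP0 : P ≠ 0 := by
    rintro rfl
    rw [map_zero, zero_div] at hg0
    exact hg0 rfl
  rw [eq_div_poly, ratFunc_eq_div hd' le_rfl] at e
  have hS0 : ((aeval (sA (C := C)) (S.reflect S.natDegree) : A2 C) : F0 C) ≠ 0 := by
    rw [aeval_reflect le_rfl]
    exact mul_ne_zero (aeval_tt_ne_zero hS.ne_zero) (pow_ne_zero _ (inv_ne_zero tt_ne_zero))
  have e2 : x * aeval sA (S.reflect S.natDegree) =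
      aeval sA (P.reflect S.natDegree) * (1 + ⟨h, hh⟩) := by
    apply Subtype.ext
    change (x : F0 C) * ((aeval (sA (C := C)) (S.reflect S.natDegree) : A2 C) : F0 C) =
      ((aeval (sA (C := C)) (P.reflect S.natDegree) : A2 C) : F0 C) * (1 + h)
    rw [e, div_mul_eq_mul_div, div_mul_cancel₀ _ hS0]
  have e3 : tay2 (1 + (⟨h, hh⟩ : A2 C)) ≠ 0 := by
    intro h0
    have h1 := congrArg PowerSeries.constantCoeff h0
    rw [map_zero, tay2, (taylorData (C := C)).constantCoeff_tayHom, map_add, map_one] at h1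
    have h2 : ‖evInf C ⟨h, hh⟩‖ < 1 := (norm_evInf_le _).trans_lt hn
    have h3 : evInf C ⟨h, hh⟩ = -1 := by linear_combination h1
    rw [h3, norm_neg, norm_one] at h2
    exact lt_irrefl _ h2
  intro h0
  have e4 := congrArg tay2 e2
  rw [map_mul, map_mul, h0, zero_mul] at e4
  exact mul_ne_zero (aeval_sA_ne_zero (by rwa [Ne, reflect_eq_zero_iff])) e3 e4.symm

/-- inclusion of `A2` in `F2` -/
def iA2 : A2 C →ₐ[C] F2 C where
  toFun x := ⟨x, IntermediateField.subset_adjoin _ _ x.2⟩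
  map_one' := rfl
  map_mul' _ _ := rfl
  map_zero' := rfl
  map_add' _ _ := rfl
  commutes' _ := rfl

lemma iA2_inj : Function.Injective (iA2 (C := C)) := fun _ _ h =>
  Subtype.ext (congrArg (fun z : F2 C => (z : F0 C)) h)

lemma exists_div_A2 (x : F2 C) : ∃ a b : A2 C, b ≠ 0 ∧ x = iA2 a / iA2 b := by
  by_cases hx : (x : F0 C) = 0
  · exact ⟨0, 1, one_ne_zero, Subtype.ext (by rw [hx]; simp)⟩
  obtain ⟨g, hg, h, hh, -, e⟩ := (mem_F2_iff hx).1 x.2
  have hd := RatFunc.num_div_denom g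
  have hden := RatFunc.denom_ne_zero g
  rw [← hd, eq_div_poly, ratFunc_eq_div (le_max_left _ g.denom.natDegree)
    (le_max_right g.num.natDegree _)] at e
  refine ⟨aeval sA (g.num.reflect (max g.num.natDegree g.denom.natDegree)) * (1 + ⟨h, hh⟩),
    aeval sA (g.denom.reflect (max g.num.natDegree g.denom.natDegree)), ?_, Subtype.ext ?_⟩
  · intro h0
    exact aeval_sA_ne_zero (C := C)
      (P := g.denom.reflect (max g.num.natDegree g.denom.natDegree))
      (by rwa [Ne, reflect_eq_zero_iff]) (by rw [h0, map_zero])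
  · rw [e, div_mul_eq_mul_div]
    rfl

end

end P025H552
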