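import Vale.Agent.P025.R2.H552.F2lau
import Vale.Agent.P025.R2.H552.Bdry

/-!
# G-LA-a (helper552), blueprint (6.4)(a)

Local model: disc `|s| < 1`, `s = 1/t`, `F2 C` = functions on the disc, `F0 C` = boundary.
`y ^ q = 1 + b s ^ e`, `q = p ^ m`, `‖q‖ < ‖b‖ ‖e‖`, `l ∣ e` a prime `≠ p`, `ζ ≠ ζ'` in `μ_p`,
`H = (y - ζ) / (y - ζ')`.
* `H_val`: at every place of the disc the order of `H` is `0` mod `l`;
* `exists_root_F0`: over the boundary `H` is an `l`-th power;
* `exists_not_pow`: after `y ↦ ξ y`, `ξ ^ q = 1`, `H` is not an `l`-th power in `F2(y)`.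
-/

universe u

namespace P025H552

open P025H373

/-- (iii) At every place over the disc the value of `H` is an `l`-th power. -/
theorem H_val {C : Type u} [Field C] [CharZero C] {E : Type*} [Field E] [Algebra C E]
    (O : ValuationSubring E)
    (hO : ∀ c : C, algebraMap C E c ∈ O) {p m e l : ℕ} (hp : p.Prime) (hl : l ∣ e)
    {b : C} (hb : b ≠ 0) {s y : E} (hs : s ∈ O) (hs0 : s ≠ 0)
    (hy : y ^ (p ^ m) = 1 + algebraMap C E b * s ^ e) (hm : 1 ≤ m)
    {ζ ζ' : C} (hζ : ζ ^ p = 1) (hζ' : ζ' ^ p = 1) (hne : ζ ≠ ζ') :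
    ∃ z : E, z ≠ 0 ∧ O.valuation ((y - algebraMap C E ζ) / (y - algebraMap C E ζ')) =
      O.valuation z ^ l := by
  have hq : p ^ m ≠ 0 := pow_ne_zero _ hp.ne_zero
  have hc : ∀ c : C, c ≠ 0 → O.valuation (algebraMap C E c) = 1 := by
    intro c h
    apply le_antisymm ((O.valuation_le_one_iff _).2 (hO c))
    have h1 := (O.valuation_le_one_iff _).2 (hO c⁻¹)
    rw [map_inv₀, map_inv₀] at h1
    have h2 : O.valuation (algebraMap C E c) ≠ 0 := by simpa using h
    exact (inv_le_one₀ (zero_lt_iff.2 h2)).1 h1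
  have hO' : ∀ x, x ∈ O ↔ O.valuation x ≤ 1 := fun x => (O.valuation_le_one_iff x).symm
  have hyO : y ∈ O := by
    rw [hO']
    have h1 : O.valuation (y ^ (p ^ m)) ≤ 1 := by
      rw [← hO', hy]
      exact add_mem (one_mem _) (mul_mem (hO b) (pow_mem hs _))
    rw [map_pow] at h1
    exact (pow_le_one_iff hq).1 h1
  have hζq : ∀ w : C, w ^ p = 1 → w ^ (p ^ m) = 1 := by
    intro w hw
    obtain ⟨k, rfl⟩ := Nat.exists_eq_add_of_le hm
    rw [pow_add, pow_one, pow_mul, hw, one_pow]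
  have hsub : ∀ w : C, O.valuation (y - algebraMap C E w) ≤ 1 := fun w =>
    (hO' _).1 (sub_mem hyO (hO w))
  -- the value of `y - w` is `1` or `v(s)^e`
  have key : ∀ w : C, w ^ p = 1 → O.valuation (y - algebraMap C E w) < 1 →
      O.valuation (y - algebraMap C E w) = O.valuation s ^ e := by
    intro w hw hlt
    have hw0 : w ≠ 0 := by
      rintro rfl
      rw [zero_pow hp.ne_zero] at hw
      exact zero_ne_one hw
    have h1 : (∑ i ∈ Finset.range (p ^ m), y ^ i * algebraMap C E w ^ (p ^ m - 1 - i)) *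
        (y - algebraMap C E w) = algebraMap C E b * s ^ e := by
      rw [geom_sum₂_mul, ← map_pow, hζq w hw, hy, map_one]; ring
    have h2 : O.valuation (∑ i ∈ Finset.range (p ^ m),
        y ^ i * algebraMap C E w ^ (p ^ m - 1 - i)) = 1 := by
      have h3 : ∀ i, O.valuation (y ^ i - algebraMap C E w ^ i) < 1 := by
        intro i
        rw [← geom_sum₂_mul, map_mul]
        refine (mul_le_mul' ((hO' _).1 (sum_mem fun j _ => ?_)) le_rfl).trans_lt
          (by rw [one_mul]; exact hlt)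
        exact mul_mem (pow_mem hyO _) (pow_mem (hO w) _)
      have h4 : O.valuation (∑ i ∈ Finset.range (p ^ m),
          (y ^ i - algebraMap C E w ^ i) * algebraMap C E w ^ (p ^ m - 1 - i)) < 1 := by
        refine Valuation.map_sum_lt _ one_ne_zero fun i _ => ?_
        rw [map_mul, map_pow, hc w hw0, one_pow, mul_one]
        exact h3 i
      have h5 : ∑ i ∈ Finset.range (p ^ m), y ^ i * algebraMap C E w ^ (p ^ m - 1 - i) =
          (∑ i ∈ Finset.range (p ^ m),
            (y ^ i - algebraMap C E w ^ i) * algebraMap C E w ^ (p ^ m - 1 - i)) +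
          algebraMap C E ((p ^ m : ℕ) * w ^ (p ^ m - 1)) := by
        rw [map_mul, map_pow, map_natCast]
        have h6 : ((p ^ m : ℕ) : E) * algebraMap C E w ^ (p ^ m - 1) =
            ∑ i ∈ Finset.range (p ^ m),
              algebraMap C E w ^ i * algebraMap C E w ^ (p ^ m - 1 - i) := by
          rw [Finset.sum_congr rfl (g := fun _ => algebraMap C E w ^ (p ^ m - 1))]
          · simp
          · intro i hi
            rw [← pow_add]
            congr 1
            have := Finset.mem_range.1 hi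
            omega
        rw [h6, ← Finset.sum_add_distrib]
        exact Finset.sum_congr rfl fun i _ => by ring
      have h7 : O.valuation (algebraMap C E ((p ^ m : ℕ) * w ^ (p ^ m - 1))) = 1 := by
        apply hc
        exact mul_ne_zero (by exact_mod_cast hq) (pow_ne_zero _ hw0)
      rw [h5, Valuation.map_add_eq_of_lt_right _ (by rw [h7]; exact h4), h7]
    have h8 := congrArg O.valuation h1
    rwa [map_mul, h2, one_mul, map_mul, hc b hb, one_mul, map_pow] at h8
  obtain ⟨e', rfl⟩ := hl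
  have hvs : O.valuation s ≠ 0 := by simpa using hs0
  rcases (hsub ζ).lt_or_eq with h1 | h1
  · have h2 : O.valuation (y - algebraMap C E ζ') = 1 := by
      have h3 : y - algebraMap C E ζ' = (y - algebraMap C E ζ) + algebraMap C E (ζ - ζ') := by
        rw [map_sub]; ring
      rw [h3, Valuation.map_add_eq_of_lt_right _ (by rw [hc _ (sub_ne_zero.2 hne)]; exact h1),
        hc _ (sub_ne_zero.2 hne)]
    refine ⟨s ^ e', pow_ne_zero _ hs0, ?_⟩
    rw [map_div₀, h2, div_one, key ζ hζ h1, map_pow, ← pow_mul, mul_comm]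
  · rcases (hsub ζ').lt_or_eq with h2 | h2
    · refine ⟨(s ^ e')⁻¹, inv_ne_zero (pow_ne_zero _ hs0), ?_⟩
      rw [map_div₀, h1, key ζ' hζ' h2, map_inv₀, map_pow, inv_pow, ← pow_mul, mul_comm e' l,
        one_div]
    · exact ⟨1, one_ne_zero, by rw [map_div₀, h1, h2]; simp⟩

variable {C : Type u} [NontriviallyNormedField C] [IsUltrametricDist C] [CompleteSpace C]
  [IsAlgClosed C]

/-- (ii) Over the boundary `H` is an `l`-th power. -/
theorem exists_root_F0 {p m e l : ℕ} (hp : p.Prime) (hpC : ‖(p : C)‖ < 1) (hm : 1 ≤ m)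
    (hl : l.Prime) (hlp : l ≠ p) {b : C} (hb : ‖((p ^ m : ℕ) : C)‖ < ‖b‖ * ‖(e : C)‖)
    {ζ ζ' : C} (hζ : ζ ^ p = 1) (hζ' : ζ' ^ p = 1)
    {E : Type*} [Field E] [Algebra (F0 C) E] [Algebra C E] [IsScalarTower C (F0 C) E]
    [FiniteDimensional (F0 C) E] {y : E}
    (hy : y ^ (p ^ m) = 1 + algebraMap C E b * (algebraMap (F0 C) E (tt C)⁻¹) ^ e) :
    ∃ z : E, z ≠ 0 ∧ z ^ l = (y - algebraMap C E ζ) / (y - algebraMap C E ζ') := by
  let i1 : NontriviallyNormedField (F0 C) :=
    { (inferInstance : NormedField (F0 C)) with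
      non_trivial := by
        obtain ⟨c, hc⟩ := NontriviallyNormedField.non_trivial (α := C)
        exact ⟨algebraMap C (F0 C) c, by rw [norm_algebraMap_C]; exact hc⟩ }
  let i2 : NormedField E := spectralNorm.normedField (F0 C) E
  let i3 : NormedAlgebra (F0 C) E := spectralNorm.normedAlgebra (F0 C) E
  have i4 : CompleteSpace E := spectralNorm.completeSpace (F0 C) E
  have i5 : IsUltrametricDist E :=
    IsUltrametricDist.isUltrametricDist_of_isNonarchimedean_norm
      (isNonarchimedean_spectralNorm (K := F0 C) (L := E))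
  have hnF : ∀ x : F0 C, ‖algebraMap (F0 C) E x‖ = ‖x‖ := fun x => norm_algebraMap' E x
  have hnC : ∀ x : C, ‖algebraMap C E x‖ = ‖x‖ := fun x => by
    rw [IsScalarTower.algebraMap_apply C (F0 C) E, hnF, norm_algebraMap_C]
  let i6 : NormedAlgebra C E :=
    { (inferInstance : Algebra C E) with
      norm_smul_le := fun c x => by rw [Algebra.smul_def, norm_mul, hnC] }
  have htt : ‖tt C‖ = 1 := norm_tt
  have hcn : ∀ n : ℕ, ‖(n : E)‖ = ‖(n : C)‖ := fun n => by rw [← hnC, map_natCast]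
  have h1 : ‖((p ^ m : ℕ) : E)‖ < ‖y ^ (p ^ m) - 1‖ := by
    rw [hy, add_sub_cancel_left, norm_mul, hnC, norm_pow, hnF, norm_inv, htt, inv_one, one_pow,
      mul_one, hcn]
    refine hb.trans_le (mul_le_of_le_one_right (norm_nonneg _) ?_)
    exact norm_natCast_le_one' e
  have h2 := norm_lt hp hm (ζ := algebraMap C E ζ) (ζ' := algebraMap C E ζ')
    (by rw [← map_pow, hζ, map_one]) (by rw [← map_pow, hζ', map_one]) h1
  set Y := y - algebraMap C E ζ' with hY
  have hY0 : Y ≠ 0 := by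
    intro h
    rw [h, norm_zero] at h2
    exact absurd h2 (not_lt.2 (norm_nonneg _))
  have h3 : ‖(y - algebraMap C E ζ) / Y - 1‖ < 1 := by
    have h4 : (y - algebraMap C E ζ) / Y - 1 =
        - ((algebraMap C E ζ - algebraMap C E ζ') / Y) := by
      rw [div_sub_one hY0, ← neg_div, hY]; congr 1; ring
    rw [h4, norm_neg, norm_div, div_lt_one (norm_pos_iff.2 hY0)]
    exact h2
  have hl1 : ‖(l : C)‖ = 1 := norm_prime_ne hp hl hlp hpC
  obtain ⟨z, -, hz, -⟩ := exists_pow_eq (C := C) (A := E) (⊤ : Subring E) isClosed_univ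
    (fun _ => Subring.mem_top _) (n := l) (x := (y - algebraMap C E ζ) / Y)
    (by rw [← norm_pos_iff, hl1]; exact one_pos) (Subring.mem_top _)
    (by rw [hl1, one_pow]; exact h3)
  refine ⟨z, ?_, hz⟩
  rintro rfl
  rw [zero_pow hl.ne_zero] at hz
  rw [← hz, zero_sub, norm_neg, norm_one] at h3
  exact lt_irrefl _ h3

/-- (iv) `H` is not an `l`-th power over the disc. -/
theorem exists_not_pow [CharZero C] {p m e l : ℕ} (hp : p.Prime)
    (hl : l.Prime) (hlp : l ≠ p) (hle : l ∣ e) (he : e ≠ 0)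
    {b : C} (hb : ‖((p ^ m : ℕ) : C)‖ < ‖b‖ * ‖(e : C)‖) (hb1 : ‖b‖ < 1)
    {ζ ζ' : C} (hζ : ζ ^ p = 1) (hζ' : ζ' ^ p = 1) (hne : ζ ≠ ζ')
    {E : Type*} [Field E] [Algebra (F2 C) E] [Algebra C E] [IsScalarTower C (F2 C) E] {y : E}
    (hy : y ^ (p ^ m) = 1 + algebraMap C E b * (algebraMap (F2 C) E (algebraMap (RatFunc C) (F2 C)
      RatFunc.X)⁻¹) ^ e)
    (hE : IntermediateField.adjoin (F2 C) {y} = ⊤) :
    ∃ ξ : C, ξ ^ (p ^ m) = 1 ∧
      ∀ z : E, z ^ l ≠ (algebraMap C E ξ * y - algebraMap C E ζ) /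
        (algebraMap C E ξ * y - algebraMap C E ζ') := by
  have hb0 : b ≠ 0 := by
    rintro rfl
    rw [norm_zero, zero_mul] at hb
    exact absurd hb (not_lt.2 (norm_nonneg _))
  obtain ⟨φ, hφ⟩ := exists_phi2 (C := C)
  obtain ⟨ε, hε⟩ := exists_prim (C := C) he
  have hε0 : ε ≠ 0 := hε.ne_zero he
  have hεn : ‖ε‖ = 1 := by
    have := congrArg norm hε.pow_eq_one
    rw [norm_pow, norm_one] at this
    exact (pow_eq_one_iff_of_nonneg (norm_nonneg _) he).1 this
  refine core φ he hε hε0 (exists_T2 hφ hεn hε0)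
    (s := (algebraMap (RatFunc C) (F2 C) RatFunc.X)⁻¹) ?_ hp hl hlp hle hb0 ?_ hζ hζ' hne ?_ hE
  · rw [s_eq, hφ, tay2_s, ofPS_X]
  · intro g hg
    apply not_pow_aux hb1 hb (g : F0 C)
    have := congrArg (fun z : F2 C => (z : F0 C)) hg
    exact this
  · rw [hy, map_add, map_one, map_mul, map_pow, ← IsScalarTower.algebraMap_apply C (F2 C) E]

end P025H552
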