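import Vale.Agent.P025.R2.H552.LAa
import Vale.Agent.P025.R2.H572.Glue

/-!
# G-LA-a (helper552): the local model in the form needed by `P025H572.lemA_glue`
-/

open Polynomial

universe u v

namespace P025H552

open P025H373

set_option linter.unusedSectionVars false

section General

variable {K : Type u} [Field K]

lemma root_pow_eq (q : ℕ) (x : K) :
    (AdjoinRoot.root (X ^ q - C x : K[X])) ^ q = AdjoinRoot.of (X ^ q - C x : K[X]) x :=
  P025H572.root_pow q x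

lemma isUnit_root_sub {q : ℕ} {x ζ : K} (hζ : ζ ^ q = 1) (hx : x ≠ 1) :
    IsUnit (AdjoinRoot.root (X ^ q - C x : K[X]) - AdjoinRoot.of (X ^ q - C x : K[X]) ζ) := by
  have h1 := geom_sum₂_mul (AdjoinRoot.root (X ^ q - C x : K[X]))
    (AdjoinRoot.of (X ^ q - C x : K[X]) ζ) q
  rw [root_pow_eq, ← map_pow, hζ, ← map_sub] at h1
  have h2 : IsUnit (AdjoinRoot.of (X ^ q - C x : K[X]) (x - 1)) :=
    (isUnit_iff_ne_zero.2 (sub_ne_zero.2 hx)).map _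
  rw [← h1] at h2
  exact isUnit_of_mul_isUnit_right h2

lemma map_eq_div {B : Type*} {E : Type*} [CommRing B] [Field E] (ψ : B →+* E) {H u u' : B}
    (h : H * u' = u) (hu' : IsUnit u') : ψ H = ψ u / ψ u' := by
  rw [eq_div_iff (hu'.map ψ).ne_zero, ← map_mul, h]

variable {k : Type v} [Field k] [Algebra k K]

/-- `root - ζ` in `K[y]/(y^q - x)`. -/
noncomputable def rs (q : ℕ) (x : K) (ζ : k) : AdjoinRoot (X ^ q - C x : K[X]) :=
  AdjoinRoot.root _ - AdjoinRoot.of _ (algebraMap k K ζ)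

lemma lift_rs {q : ℕ} {x : K} {E : Type*} [CommRing E] (i : K →+* E) (y : E)
    (h : eval₂ i y (X ^ q - C x : K[X]) = 0) (ζ : k) :
    AdjoinRoot.lift i y h (rs q x ζ) = y - i (algebraMap k K ζ) := by
  rw [rs, map_sub, AdjoinRoot.lift_root, AdjoinRoot.lift_of]

lemma not_pow_adjoin {q l : ℕ} (hq : q ≠ 0) (x : K) {ζ ζ' : k}
    (hno : ∀ (E : Type u) [Field E] [Algebra K E] [Algebra k E] [IsScalarTower k K E] (y : E),
      y ^ q = algebraMap K E x → IntermediateField.adjoin K {y} = ⊤ → ∃ ξ : k, ξ ^ q = 1 ∧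
        ∀ z : E, z ^ l ≠ (algebraMap k E ξ * y - algebraMap k E ζ) /
          (algebraMap k E ξ * y - algebraMap k E ζ'))
    {H : AdjoinRoot (X ^ q - C x : K[X])} (hH : H * rs q x ζ' = rs q x ζ)
    (hu' : IsUnit (rs q x ζ')) : ¬ ∃ z, z ^ l = H := by
  rintro ⟨z, hz⟩
  have hnt : Nontrivial (AdjoinRoot (X ^ q - C x : K[X])) := by
    refine AdjoinRoot.nontrivial _ ?_
    rw [degree_X_pow_sub_C (Nat.pos_of_ne_zero hq)]
    exact_mod_cast hq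
  obtain ⟨M, hM⟩ := Ideal.exists_maximal (AdjoinRoot (X ^ q - C x : K[X]))
  let fld : Field (AdjoinRoot (X ^ q - C x : K[X]) ⧸ M) := Ideal.Quotient.field M
  let y : AdjoinRoot (X ^ q - C x : K[X]) ⧸ M := Ideal.Quotient.mk M (AdjoinRoot.root _)
  have hyx : y ^ q = algebraMap K (AdjoinRoot (X ^ q - C x : K[X]) ⧸ M) x := by
    change (Ideal.Quotient.mk M (AdjoinRoot.root _)) ^ q = _
    rw [← map_pow, root_pow_eq]
    rfl
  have htop : IntermediateField.adjoin K {y} = ⊤ := by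
    have h1 : Algebra.adjoin K {(AdjoinRoot.root _ : AdjoinRoot (X ^ q - C x : K[X]))} = ⊤ :=
      AdjoinRoot.adjoinRoot_eq_top
    have h2 : Algebra.adjoin K {y} = ⊤ := by
      have h3 : (Algebra.adjoin K {(AdjoinRoot.root _ : AdjoinRoot (X ^ q - C x : K[X]))}).map
          (Ideal.Quotient.mkₐ K M) = ⊤ := by
        rw [h1, Algebra.map_top, AlgHom.range_eq_top]
        exact Ideal.Quotient.mkₐ_surjective _ _
      rw [AlgHom.map_adjoin_singleton] at h3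
      exact h3
    rw [← IntermediateField.toSubalgebra_inj, IntermediateField.top_toSubalgebra, eq_top_iff, ← h2]
    exact IntermediateField.algebra_adjoin_le_adjoin _ _
  obtain ⟨ξ, hξ, hno⟩ := hno (AdjoinRoot (X ^ q - C x : K[X]) ⧸ M) y hyx htop
  have hev : eval₂ (algebraMap K (AdjoinRoot (X ^ q - C x : K[X]) ⧸ M))
      (algebraMap k (AdjoinRoot (X ^ q - C x : K[X]) ⧸ M) ξ * y) (X ^ q - C x : K[X]) = 0 := by
    rw [eval₂_sub, eval₂_X_pow, eval₂_C, mul_pow, ← map_pow, hξ, map_one, one_mul, hyx, sub_self]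
  apply hno (AdjoinRoot.lift _ _ hev z)
  rw [← map_pow, hz, map_eq_div (AdjoinRoot.lift _ _ hev) hH hu', lift_rs, lift_rs,
    ← IsScalarTower.algebraMap_apply, ← IsScalarTower.algebraMap_apply]

lemma pow_adjoin [CharZero K] {q l : ℕ} (hq : q ≠ 0) (x : K) (hx0 : x ≠ 0) {ζ ζ' : k}
    (hyes : ∀ (E : Type u) [Field E] [Algebra K E] [Algebra k E] [IsScalarTower k K E]
      [FiniteDimensional K E] (y : E), y ^ q = algebraMap K E x →
        ∃ z : E, z ^ l = (y - algebraMap k E ζ) / (y - algebraMap k E ζ'))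
    {H : AdjoinRoot (X ^ q - C x : K[X])} (hH : H * rs q x ζ' = rs q x ζ)
    (hu' : IsUnit (rs q x ζ')) : ∃ z, z ^ l = H := by
  have : NeZero q := ⟨hq⟩
  have hred := P025H572.adj_reduced q hq x hx0
  refine P025H572.isPow_of_forall_maximal l _ fun M => ?_
  let fld : Field (AdjoinRoot (X ^ q - C x : K[X]) ⧸ M.asIdeal) := Ideal.Quotient.field M.asIdeal
  let y : AdjoinRoot (X ^ q - C x : K[X]) ⧸ M.asIdeal :=
    Ideal.Quotient.mk M.asIdeal (AdjoinRoot.root _)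
  have hfin : FiniteDimensional K (AdjoinRoot (X ^ q - C x : K[X]) ⧸ M.asIdeal) :=
    Module.Finite.of_surjective (Ideal.Quotient.mkₐ K M.asIdeal).toLinearMap
      (Ideal.Quotient.mkₐ_surjective K M.asIdeal)
  obtain ⟨z, hz⟩ := hyes (AdjoinRoot (X ^ q - C x : K[X]) ⧸ M.asIdeal) y (by
    change (Ideal.Quotient.mk M.asIdeal (AdjoinRoot.root _)) ^ q = _
    rw [← map_pow, root_pow_eq]
    rfl)
  refine ⟨z, ?_⟩
  have e1 : ∀ w : k, Ideal.Quotient.mk M.asIdeal (rs q x w) =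
      y - algebraMap k (AdjoinRoot (X ^ q - C x : K[X]) ⧸ M.asIdeal) w := fun w => by
    rw [rs, map_sub]; rfl
  rw [hz, map_eq_div (Ideal.Quotient.mk M.asIdeal) hH hu', e1, e1]

lemma mapB_rs {K0 : Type*} [Field K0] [Algebra K K0] [Algebra k K0] [IsScalarTower k K K0]
    (q : ℕ) (x : K) (ζ : k) :
    P025H572.mapB q x K0 (rs q x ζ) = rs q (algebraMap K K0 x) ζ := by
  rw [P025H572.mapB, lift_rs, rs, RingHom.comp_apply, ← IsScalarTower.algebraMap_apply]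

end General

variable {C : Type u} [NontriviallyNormedField C] [IsUltrametricDist C] [CompleteSpace C]
  [IsAlgClosed C] [CharZero C]

instance tower_C_F2_F0 : IsScalarTower C (F2 C) (F0 C) := IsScalarTower.of_algebraMap_eq' rfl

/-- `s = 1/t` in `F2 C` -/
noncomputable def s2 : F2 C := (algebraMap (RatFunc C) (F2 C) RatFunc.X)⁻¹

lemma s2_ne_zero : (s2 : F2 C) ≠ 0 :=
  inv_ne_zero ((_root_.map_ne_zero _).2 RatFunc.X_ne_zero)

/-- `x = 1 + b s ^ e` in `F2 C` -/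
noncomputable def x2 (b : C) (e : ℕ) : F2 C := 1 + algebraMap C (F2 C) b * s2 ^ e

lemma x2_ne_one {b : C} (hb : b ≠ 0) (e : ℕ) : x2 b e ≠ 1 := by
  rw [x2, Ne, add_eq_left]
  exact mul_ne_zero ((_root_.map_ne_zero _).2 hb) (pow_ne_zero _ s2_ne_zero)

lemma algebraMap_F0_x2 (b : C) (e : ℕ) :
    algebraMap (F2 C) (F0 C) (x2 b e) = 1 + algebraMap C (F0 C) b * ((tt C)⁻¹) ^ e := rfl

lemma norm_x2 {b : C} (hb1 : ‖b‖ < 1) (e : ℕ) :
    ‖1 + algebraMap C (F0 C) b * ((tt C)⁻¹) ^ e‖ = 1 := by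
  have htt : ‖tt C‖ = 1 := norm_tt
  have hnorm : ‖algebraMap C (F0 C) b * ((tt C)⁻¹) ^ e‖ = ‖b‖ := by
    rw [norm_mul, norm_pow, norm_inv, htt, inv_one, one_pow, mul_one, norm_algebraMap_C]
  have h1 : ‖(1 : F0 C)‖ = 1 := norm_one
  rw [IsUltrametricDist.norm_add_eq_max_of_norm_ne_norm (by rw [hnorm, h1]; exact hb1.ne'),
    hnorm, h1]
  exact max_eq_left hb1.le

lemma x2_F0_ne_zero {b : C} (hb1 : ‖b‖ < 1) (e : ℕ) :
    algebraMap (F2 C) (F0 C) (x2 b e) ≠ 0 := by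
  rw [algebraMap_F0_x2, ← norm_pos_iff, norm_x2 hb1]
  exact one_pos

lemma algebraMap_x2 {E : Type*} [Field E] [Algebra (F2 C) E] [Algebra C E]
    [IsScalarTower C (F2 C) E] (b : C) (e : ℕ) :
    algebraMap (F2 C) E (x2 b e) = 1 + algebraMap C E b * (algebraMap (F2 C) E s2) ^ e := by
  rw [x2, map_add, map_one, map_mul, map_pow, ← IsScalarTower.algebraMap_apply C (F2 C) E]

lemma pow_one_of {p m : ℕ} (hm : 1 ≤ m) {ζ : C} (hζ : ζ ^ p = 1) : ζ ^ (p ^ m) = 1 := by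
  obtain ⟨k, rfl⟩ := Nat.exists_eq_add_of_le hm
  rw [pow_add, pow_one, pow_mul, hζ, one_pow]

lemma part_not_pow {p m e l : ℕ} (hp : p.Prime)
    (hl : l.Prime) (hlp : l ≠ p) (hle : l ∣ e) (he : e ≠ 0)
    {b : C} (hb : ‖((p ^ m : ℕ) : C)‖ < ‖b‖ * ‖(e : C)‖) (hb1 : ‖b‖ < 1)
    {ζ ζ' : C} (hζ : ζ ^ p = 1) (hζ' : ζ' ^ p = 1) (hne : ζ ≠ ζ')
    {H : AdjoinRoot (X ^ (p ^ m) - Polynomial.C (x2 b e) : (F2 C)[X])}
    (hH : H * rs (p ^ m) (x2 b e) ζ' = rs (p ^ m) (x2 b e) ζ)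
    (hu' : IsUnit (rs (p ^ m) (x2 b e) ζ')) : ¬ ∃ z, z ^ l = H := by
  refine not_pow_adjoin (k := C) (pow_ne_zero _ hp.ne_zero) (x2 b e) ?_ hH hu'
  intro E _ _ _ _ y hy hE
  refine exists_not_pow hp hl hlp hle he hb hb1 hζ hζ' hne ?_ hE
  rw [hy, algebraMap_x2]; rfl

lemma part_pow {p m e l : ℕ} (hp : p.Prime) (hpC : ‖(p : C)‖ < 1) (hm : 1 ≤ m)
    (hl : l.Prime) (hlp : l ≠ p)
    {b : C} (hb : ‖((p ^ m : ℕ) : C)‖ < ‖b‖ * ‖(e : C)‖) (hb1 : ‖b‖ < 1)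
    {ζ ζ' : C} (hζ : ζ ^ p = 1) (hζ' : ζ' ^ p = 1)
    {H : AdjoinRoot (X ^ (p ^ m) - Polynomial.C (algebraMap (F2 C) (F0 C) (x2 b e)) : (F0 C)[X])}
    (hH : H * rs (p ^ m) (algebraMap (F2 C) (F0 C) (x2 b e)) ζ' =
      rs (p ^ m) (algebraMap (F2 C) (F0 C) (x2 b e)) ζ)
    (hu' : IsUnit (rs (p ^ m) (algebraMap (F2 C) (F0 C) (x2 b e)) ζ')) : ∃ z, z ^ l = H := by
  have hc0 : CharZero (F0 C) := charZero_of_injective_algebraMap (algebraMap C (F0 C)).injective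
  refine pow_adjoin (k := C) (pow_ne_zero _ hp.ne_zero) _ (x2_F0_ne_zero hb1 e) ?_ hH hu'
  intro E _ _ _ _ _ y hy
  obtain ⟨z, -, hz⟩ := exists_root_F0 (E := E) (y := y) hp hpC hm hl hlp hb hζ hζ' (by
    rw [hy, algebraMap_F0_x2, map_add, map_one, map_mul, map_pow,
      ← IsScalarTower.algebraMap_apply C (F0 C) E])
  exact ⟨z, hz⟩

lemma part_val {p m e l : ℕ} (hp : p.Prime) (hm : 1 ≤ m) (hle : l ∣ e)
    {b : C} (hb0 : b ≠ 0)
    {ζ ζ' : C} (hζ : ζ ^ p = 1) (hζ' : ζ' ^ p = 1) (hne : ζ ≠ ζ')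
    {H : AdjoinRoot (X ^ (p ^ m) - Polynomial.C (x2 b e) : (F2 C)[X])}
    (hH : H * rs (p ^ m) (x2 b e) ζ' = rs (p ^ m) (x2 b e) ζ)
    (hu' : IsUnit (rs (p ^ m) (x2 b e) ζ')) {E : Type v} [Field E]
    (ψ : AdjoinRoot (X ^ (p ^ m) - Polynomial.C (x2 b e) : (F2 C)[X]) →+* E)
    (O : ValuationSubring E) (hO : ∀ c : C, ψ (AdjoinRoot.of _ (algebraMap C (F2 C) c)) ∈ O)
    (hs : ψ (AdjoinRoot.of _ s2) ∈ O) :
    ∃ z : E, z ≠ 0 ∧ O.valuation (ψ H) = O.valuation z ^ l := by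
  let alg2 : Algebra (F2 C) E := (ψ.comp (AdjoinRoot.of _)).toAlgebra
  let alg : Algebra C E := ((algebraMap (F2 C) E).comp (algebraMap C (F2 C))).toAlgebra
  have htow : IsScalarTower C (F2 C) E := IsScalarTower.of_algebraMap_eq' rfl
  have hs0 : algebraMap (F2 C) E s2 ≠ 0 := (_root_.map_ne_zero _).2 s2_ne_zero
  obtain ⟨z, hz0, hz⟩ := H_val (C := C) O hO hp hle hb0 hs hs0 (y := ψ (AdjoinRoot.root _))
    (m := m) (by
      rw [← map_pow, root_pow_eq]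
      exact algebraMap_x2 (E := E) b e) hm hζ hζ' hne
  refine ⟨z, hz0, ?_⟩
  have e1 : ∀ w : C, ψ (rs (p ^ m) (x2 b e) w) = ψ (AdjoinRoot.root _) - algebraMap C E w :=
    fun w => by rw [rs, map_sub]; rfl
  rw [map_eq_div ψ hH hu', ← hz, e1, e1]

/-- **G-LA-a** in the form needed for the Kummer gluing of `P025H572.lemA_glue`. -/
theorem LAa {p m e l : ℕ} (hp : p.Prime) (hpC : ‖(p : C)‖ < 1) (hm : 1 ≤ m)
    (hl : l.Prime) (hlp : l ≠ p) (hle : l ∣ e) (he : e ≠ 0)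
    {b : C} (hb : ‖((p ^ m : ℕ) : C)‖ < ‖b‖ * ‖(e : C)‖) (hb1 : ‖b‖ < 1) :
    ∃ H : AdjoinRoot (X ^ (p ^ m) - Polynomial.C (x2 b e) : (F2 C)[X]),
      IsUnit H ∧ (¬ ∃ z, z ^ l = H) ∧
      (∃ z, z ^ l = P025H572.mapB (p ^ m) (x2 b e) (F0 C) H) ∧
      ∀ {E : Type v} [Field E]
        (ψ : AdjoinRoot (X ^ (p ^ m) - Polynomial.C (x2 b e) : (F2 C)[X]) →+* E)
        (O : ValuationSubring E), (∀ c : C, ψ (AdjoinRoot.of _ (algebraMap C (F2 C) c)) ∈ O) →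
        ψ (AdjoinRoot.of _ s2) ∈ O →
        ∃ z : E, z ≠ 0 ∧ O.valuation (ψ H) = O.valuation z ^ l := by
  have hb0 : b ≠ 0 := by
    rintro rfl
    rw [norm_zero, zero_mul] at hb
    exact absurd hb (not_lt.2 (norm_nonneg _))
  obtain ⟨ζ, hζp⟩ := exists_prim (C := C) hp.ne_zero
  have hζ : ζ ^ p = 1 := hζp.pow_eq_one
  have hne : ζ ≠ 1 := hζp.ne_one hp.one_lt
  have h1p : (1 : C) ^ p = 1 := one_pow _
  have hu : IsUnit (rs (p ^ m) (x2 b e) ζ) :=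
    isUnit_root_sub (by rw [← map_pow, pow_one_of hm hζ, map_one]) (x2_ne_one hb0 e)
  have hu' : IsUnit (rs (p ^ m) (x2 b e) (1 : C)) :=
    isUnit_root_sub (by rw [← map_pow, one_pow, map_one]) (x2_ne_one hb0 e)
  obtain ⟨w, hw⟩ := hu'
  have hu' : IsUnit (rs (p ^ m) (x2 b e) (1 : C)) := ⟨w, hw⟩
  have hH : (rs (p ^ m) (x2 b e) ζ * ((w⁻¹ : Units _) :
      AdjoinRoot (X ^ (p ^ m) - Polynomial.C (x2 b e) : (F2 C)[X]))) *
      rs (p ^ m) (x2 b e) (1 : C) = rs (p ^ m) (x2 b e) ζ := by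
    rw [← hw, mul_assoc, Units.inv_mul, mul_one]
  refine ⟨_, hu.mul (w⁻¹).isUnit, part_not_pow hp hl hlp hle he hb hb1 hζ h1p hne hH hu', ?_,
    fun ψ O hO hs => part_val hp hm hle hb0 hζ h1p hne hH hu' ψ O hO hs⟩
  refine part_pow (e := e) hp hpC hm hl hlp hb hb1 hζ h1p ?_ ?_
  · have := congrArg (P025H572.mapB (p ^ m) (x2 b e) (F0 C)) hH
    rwa [map_mul, mapB_rs, mapB_rs] at this
  · have := hu'.map (P025H572.mapB (p ^ m) (x2 b e) (F0 C))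
    rwa [mapB_rs] at this

end P025H552
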