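import Mathlib

/-!
# Laurent series, the automorphism `X ↦ ε X` (helper552)
-/

universe u v

namespace P025H552

open PowerSeries

noncomputable section

variable {C : Type u} [Field C]


/-- inclusion of power series into Laurent series -/
abbrev ofPS : C⟦X⟧ →+* LaurentSeries C := HahnSeries.ofPowerSeries ℤ C

/-- the variable of Laurent series -/
def LX : LaurentSeries C := HahnSeries.single 1 1

lemma ofPS_inj : Function.Injective (ofPS (C := C)) := HahnSeries.ofPowerSeries_injective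

lemma ofPS_X : ofPS (X : C⟦X⟧) = LX := by simp [LX, ofPS]

lemma LX_ne_zero : (LX : (LaurentSeries C)) ≠ 0 := by
  rw [← ofPS_X]
  exact fun h => PowerSeries.X_ne_zero (R := C) (ofPS_inj (by rw [h, map_zero]))

lemma LX_zpow (k : ℤ) : (LX : (LaurentSeries C)) ^ k = HahnSeries.single k 1 :=
  (RatFunc.single_zpow (F := C) k).symm

lemma ofPS_C (c : C) : ofPS (PowerSeries.C c) = algebraMap C (LaurentSeries C) c := by
  rw [HahnSeries.ofPowerSeries_C, LaurentSeries.algebraMap_apply]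

lemma exists_decomp (z : (LaurentSeries C)) (hz : z ≠ 0) :
    ∃ (k : ℤ) (u : C⟦X⟧), constantCoeff u ≠ 0 ∧ z = LX ^ k * ofPS u := by
  refine ⟨z.order, z.powerSeriesPart, ?_, ?_⟩
  · rw [← coeff_zero_eq_constantCoeff_apply, LaurentSeries.powerSeriesPart_coeff]
    simpa using HahnSeries.coeff_order_eq_zero.not.2 hz
  · rw [LX_zpow]
    exact (LaurentSeries.single_order_mul_powerSeriesPart z).symm

lemma decomp_aux {k k' : ℤ} {u u' : C⟦X⟧} (hu : constantCoeff u ≠ 0)
    (h : LX ^ k * ofPS u = LX ^ k' * ofPS u') : k' ≤ k := by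
  by_contra hlt
  push Not at hlt
  obtain ⟨n, hn⟩ : ∃ n : ℕ, k' = k + (n + 1) := ⟨(k' - k - 1).toNat, by omega⟩
  have h1 : ofPS u = ofPS (X ^ (n + 1) * u') := by
    rw [map_mul, map_pow, ofPS_X]
    have h2 := LX_ne_zero (C := C)
    have h3 : (LX : (LaurentSeries C)) ^ k ≠ 0 := zpow_ne_zero _ h2
    apply mul_left_cancel₀ h3
    rw [h, hn, zpow_add₀ h2, mul_assoc]
    norm_cast
  have h2 := ofPS_inj h1
  apply hu
  rw [h2]; simp

lemma decomp_unique {k k' : ℤ} {u u' : C⟦X⟧} (hu : constantCoeff u ≠ 0)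
    (hu' : constantCoeff u' ≠ 0) (h : LX ^ k * ofPS u = LX ^ k' * ofPS u') :
    k = k' ∧ u = u' := by
  have h1 : k = k' := le_antisymm (decomp_aux hu' h.symm) (decomp_aux hu h)
  subst h1
  exact ⟨rfl, ofPS_inj (mul_left_cancel₀ (zpow_ne_zero _ LX_ne_zero) h)⟩

lemma rescale_injective' {ε : C} (hε : ε ≠ 0) : Function.Injective (rescale ε) := by
  intro f g h
  ext n
  have := congrArg (coeff n) h
  rw [coeff_rescale, coeff_rescale] at this
  exact mul_left_cancel₀ (pow_ne_zero _ hε) this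

/-- the automorphism `X ↦ ε X` of Laurent series -/
def T {ε : C} (hε : ε ≠ 0) : (LaurentSeries C) →+* (LaurentSeries C) :=
  IsFractionRing.map (K := (LaurentSeries C)) (L := (LaurentSeries C)) (rescale_injective' hε)

lemma T_ofPS {ε : C} (hε : ε ≠ 0) (f : C⟦X⟧) : T hε (ofPS f) = ofPS (rescale ε f) :=
  IsLocalization.map_eq (M := nonZeroDivisors C⟦X⟧) (T := nonZeroDivisors C⟦X⟧) (S := (LaurentSeries C)) (Q := (LaurentSeries C))
    (nonZeroDivisors_le_comap_nonZeroDivisors_of_injective _ (rescale_injective' hε)) f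

lemma T_algebraMap {ε : C} (hε : ε ≠ 0) (c : C) : T hε (algebraMap C (LaurentSeries C) c) = algebraMap C (LaurentSeries C) c := by
  rw [← ofPS_C, T_ofPS]
  congr 1
  ext n
  rw [coeff_rescale, coeff_C]
  split_ifs with h
  · simp [h]
  · simp

lemma T_LX {ε : C} (hε : ε ≠ 0) : T hε LX = algebraMap C (LaurentSeries C) ε * LX := by
  rw [← ofPS_X, T_ofPS, ← ofPS_C, ← map_mul]
  congr 1
  ext n
  rw [coeff_rescale, coeff_C_mul, coeff_X]
  split_ifs with h
  · simp [h]
  · simp

lemma T_LX_zpow {ε : C} (hε : ε ≠ 0) (k : ℤ) :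
    T hε (LX ^ k) = algebraMap C (LaurentSeries C) (ε ^ k) * LX ^ k := by
  rw [map_zpow₀, T_LX, mul_zpow, map_zpow₀]

/-- eigenvectors of `T`: the order determines the eigenvalue. -/
lemma T_eigen {ε : C} (hε : ε ≠ 0) {k : ℤ} {u : C⟦X⟧} (hu : constantCoeff u ≠ 0) {lam : C}
    (h : T hε (LX ^ k * ofPS u) = algebraMap C (LaurentSeries C) lam * (LX ^ k * ofPS u)) : lam = ε ^ k := by
  rw [map_mul, T_LX_zpow, T_ofPS, ← ofPS_C, ← ofPS_C] at h
  have h0 : (LX : (LaurentSeries C)) ^ k ≠ 0 := zpow_ne_zero _ LX_ne_zero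
  have h1 : ofPS (PowerSeries.C (ε ^ k) * rescale ε u) = ofPS (PowerSeries.C lam * u) := by
    rw [map_mul, map_mul]
    apply mul_left_cancel₀ h0
    linear_combination h
  have h2 := congrArg constantCoeff (ofPS_inj h1)
  rw [map_mul, map_mul, constantCoeff_C, constantCoeff_C] at h2
  have h3 : constantCoeff (rescale ε u) = constantCoeff u := by
    rw [← coeff_zero_eq_constantCoeff_apply, coeff_rescale]; simp
  rw [h3] at h2
  exact (mul_right_cancel₀ hu h2).symm

end

end P025H552
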